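import Vale.Agent.Lib.P062.Root
import Vale.Agent.Lib.P062.Cert.Null
import Vale.Agent.Lib.P062.Cert.N11
import Vale.Agent.Lib.P062.Cert.N20
import Vale.Agent.Lib.P062.Cert.N21
import Vale.Agent.Lib.P062.Cert.N22
import Vale.Agent.Lib.P062.Cert.N31

/-!
# Maker wins the Snaky game unless Breaker answers next to the opening (P062)

Maker opens at `(0, 0)`.  The checked proof trees of `Cert` treat the position in which Breaker
does not answer near the opening (`Null`) and the positions after the replies `(1, 1)`, `(2, 0)`,
`(2, 1)`, `(2, 2)`, `(3, 1)`; `rootOk` checks that every other reply, except the four cells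
orthogonally adjacent to `(0, 0)`, is covered by one of them after a symmetry.
-/

namespace Vale.Agent.Lib.P062

/-- The zone of the proof tree for the position in which Breaker has not answered. -/
def nullZone : ℕ := 6955955136285362550483866849804048790929633811756106534134128259792343480688611023852094514831128185437589125513815908546207433737040663817597602496512

/-- The listed first replies (codes) with the zones and the numbers of moves of their proof
trees. -/
def repList : List (ℕ × ℕ × ℕ) :=
  [(392, 27459210204146383892257005154336129006869737544825928691647399984489932319938937215382727885636189153117851714719971373034748764414866348628631518822484934656, 14),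
    (366, 219673531568667367348525321740543016195227018116849263180570933223751061677503888159614436096617311834297216571744158628698941920260777182071003462564055089152, 15),
    (393, 18427551094663273312136894406611549747538691056519738539639287720505389301567159079661648447151253129895318642073501724030427020308293578906876116307200561498984284160, 15),
    (420, 1636695351201101833939670703362668317133907057387344027714799328581385490604334924376498977853481494291961064577369537279409002619553323571404792135680, 15),
    (394, 29484081773428582569460203178232371410859781781882430502266143299528531017157239917841699901877712575888744076211127863155855627626027160320664696349150076250254999552, 15)]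

/-- The bitmask of the four cells orthogonally adjacent to `(0, 0)`. -/
def adjMask : ℕ := maskOfList [365, 363, 391, 337]

theorem nullZone_won : Won (1 <<< 364) 0 nullZone 15 := Cert.Null.won

theorem repList_won : ∀ r ∈ repList, Won (1 <<< 364) (1 <<< r.1) r.2.1 r.2.2 ∧ r.2.2 ≤ 15 := by
  intro r hr
  unfold repList at hr
  simp only [List.mem_cons, List.not_mem_nil, or_false] at hr
  rcases hr with rfl | rfl | rfl | rfl | rfl
  · exact ⟨Cert.N11.won, by decide⟩
  · exact ⟨Cert.N20.won, by decide⟩
  · exact ⟨Cert.N21.won, by decide⟩
  · exact ⟨Cert.N22.won, by decide⟩
  · exact ⟨Cert.N31.won, by decide⟩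

theorem rootOk_adj : rootOk nullZone repList adjMask = true := by
  decide +kernel

theorem cellsOf_adjMask : cellsOf adjMask = {(1, 0), (-1, 0), (0, 1), (0, -1)} := by
  unfold adjMask
  rw [cellsOf_maskOfList]
  decide

/-- Maker, opening at `(0, 0)`, wins the Snaky game in the plane within 16 moves against every
legal Breaker strategy whose first reply is not orthogonally adjacent to the opening. -/
theorem makerWinsAfter_unlessAdjacent :
    MakerWinsAfter 16 (Set.univ : Set (ℤ × ℤ)) {A | IsSnakyCopy A} (0, 0)
      (fun d => d ≠ (1, 0) ∧ d ≠ (-1, 0) ∧ d ≠ (0, 1) ∧ d ≠ (0, -1)) := by
  obtain ⟨m, hm0, hm⟩ :=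
    makerWinsAfter_of_root nullZone_won (le_refl 15) repList_won rootOk_adj
  refine ⟨m, hm0, fun s hs hgood => hm s hs ?_⟩
  rw [cellsOf_adjMask]
  simp only [Finset.mem_insert, Finset.mem_singleton, not_or]
  exact hgood

end Vale.Agent.Lib.P062
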