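import Vale.Agent.Lib.P062.MakerDefs

/-!
# Maker wins unless Breaker follows one of finitely many lines of play (P062)
-/

namespace Vale.Agent.Lib.P062

/-- `MakerWinsUnless N B W j bad`: in the Maker-Breaker game on the board `B` with winning sets
`W`, Maker has a strategy `m` that wins within `N` Maker moves against every legal Breaker
strategy `s`, except possibly those `s` for which the list of the first `j` replies of Breaker in
the play of `m` against `s` (newest first, `replies s (makerPlay m s j)`) belongs to `bad`. -/
def MakerWinsUnless {C : Type} [DecidableEq C] (N : ℕ) (B : Set C) (W : Set (Finset C)) (j : ℕ)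
    (bad : Set (List C)) : Prop :=
  ∃ m : List C → C, ∀ s : List C → C, LegalStrategy B s → replies s (makerPlay m s j) ∉ bad →
    ∃ k, k ≤ N ∧ LegalPlay B s (makerPlay m s k) ∧ ∃ A ∈ W, A ⊆ (makerPlay m s k).toFinset

end Vale.Agent.Lib.P062
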