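import Vale.Agent.Lib.P062.MakerZone
import Vale.Agent.Lib.P062.UnlessDefs

/-!
# Winning positions with excused lines of play (P062)

`MWinU B W bad n M K bs` is the position-based notion `MWin` in which Maker is excused from
winning as soon as the list `bs` of Breaker's replies so far (newest first) satisfies `bad`.
`makerWinsUnless_of_MWinU` turns such a win from the empty position into a Maker strategy.
-/

namespace Vale.Agent.Lib.P062

section general

variable {C : Type} [DecidableEq C] {B : Set C} {W : Set (Finset C)} {bad : List C → Prop}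

/-- `MWinU B W bad n M K bs`: Maker owns `M`, Breaker owns `K`, Breaker's replies so far are `bs`
(newest first), Maker is to move and completes a winning set within `n` further moves, except
possibly in the lines of play in which Breaker's list of replies satisfies `bad` at some later
moment. -/
inductive MWinU (B : Set C) (W : Set (Finset C)) (bad : List C → Prop) :
    ℕ → Finset C → Finset C → List C → Prop
  | win {n : ℕ} {M K : Finset C} {bs : List C} (c : C) (A : Finset C) (hcB : c ∈ B)
      (hcM : c ∉ M) (hcK : c ∉ K) (hA : A ∈ W) (hAM : A ⊆ insert c M) :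
      MWinU B W bad (n + 1) M K bs
  | step {n : ℕ} {M K : Finset C} {bs : List C} (c : C) (hcB : c ∈ B) (hcM : c ∉ M)
      (hcK : c ∉ K)
      (h : ∀ d ∈ B, d ∉ insert c M → d ∉ K → ¬ bad (d :: bs) →
        MWinU B W bad n (insert c M) (insert d K) (d :: bs)) :
      MWinU B W bad (n + 1) M K bs

/-- A win is a win with excused lines. -/
theorem MWin.toU {n : ℕ} {M K : Finset C} (h : MWin B W n M K) (bs : List C) :
    MWinU B W bad n M K bs := by
  induction h generalizing bs with
  | win c A hcB hcM hcK hA hAM => exact MWinU.win c A hcB hcM hcK hA hAM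
  | step c hcB hcM hcK h ih =>
    exact MWinU.step c hcB hcM hcK (fun d hdB hdM hdK _ => ih d hdB hdM hdK _)

/-- More moves never hurt Maker. -/
theorem MWinU.mono_n {n n' : ℕ} {M K : Finset C} {bs : List C} (h : MWinU B W bad n M K bs)
    (hn : n ≤ n') : MWinU B W bad n' M K bs := by
  induction h generalizing n' with
  | win c A hcB hcM hcK hA hAM =>
    obtain ⟨k, rfl⟩ : ∃ k, n' = k + 1 := ⟨n' - 1, by omega⟩
    exact MWinU.win c A hcB hcM hcK hA hAM
  | step c hcB hcM hcK h ih =>
    obtain ⟨k, rfl⟩ : ∃ k, n' = k + 1 := ⟨n' - 1, by omega⟩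
    exact MWinU.step c hcB hcM hcK (fun d hdB hdM hdK hb => ih d hdB hdM hdK hb (by omega))

/-- Wins with excused lines are preserved by every symmetry `g` of the board that maps winning
sets to winning sets and excused lines to excused lines. -/
theorem MWinU.image_equiv (g : C ≃ C) (hB : ∀ c, c ∈ B ↔ g c ∈ B)
    (hW : ∀ A ∈ W, A.image g ∈ W) (hbad : ∀ l, bad l → bad (l.map g)) {n : ℕ}
    {M K : Finset C} {bs : List C} (h : MWinU B W bad n M K bs) :
    MWinU B W bad n (M.image g) (K.image g) (bs.map g) := by
  induction h with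
  | @win n M K bs c A hcB hcM hcK hA hAM =>
    refine MWinU.win (g c) (A.image g) ((hB c).mp hcB) ?_ ?_ (hW A hA) ?_
    · rw [Finset.mem_image]
      rintro ⟨x, hx, hxc⟩
      exact hcM (g.injective hxc ▸ hx)
    · rw [Finset.mem_image]
      rintro ⟨x, hx, hxc⟩
      exact hcK (g.injective hxc ▸ hx)
    · rw [← Finset.image_insert]
      exact Finset.image_subset_image hAM
  | @step n M K bs c hcB hcM hcK h ih =>
    refine MWinU.step (g c) ((hB c).mp hcB) ?_ ?_ ?_
    · rw [Finset.mem_image]
      rintro ⟨x, hx, hxc⟩
      exact hcM (g.injective hxc ▸ hx)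
    · rw [Finset.mem_image]
      rintro ⟨x, hx, hxc⟩
      exact hcK (g.injective hxc ▸ hx)
    · intro d' hdB hdM hdK hnb
      have hd' : g (g.symm d') = d' := g.apply_symm_apply d'
      have h1 : g.symm d' ∈ B := (hB _).mpr (by rw [hd']; exact hdB)
      have h2 : g.symm d' ∉ insert c M := by
        intro hmem
        apply hdM
        rw [← Finset.image_insert, ← hd']
        exact Finset.mem_image_of_mem g hmem
      have h3 : g.symm d' ∉ K := by
        intro hmem
        apply hdK
        rw [← hd']
        exact Finset.mem_image_of_mem g hmem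
      have h5 : ¬ bad (g.symm d' :: bs) := by
        intro hb
        apply hnb
        have h6 := hbad _ hb
        rw [List.map_cons, hd'] at h6
        exact h6
      have h4 := ih (g.symm d') h1 h2 h3 h5
      rw [Finset.image_insert, Finset.image_insert, List.map_cons, hd'] at h4
      exact h4

theorem MWinU.exists_move {n : ℕ} {M K : Finset C} {bs : List C}
    (h : MWinU B W bad (n + 1) M K bs) :
    ∃ c, c ∈ B ∧ c ∉ M ∧ c ∉ K ∧ ((∃ A ∈ W, A ⊆ insert c M) ∨
      ∀ d ∈ B, d ∉ insert c M → d ∉ K → ¬ bad (d :: bs) →
        MWinU B W bad n (insert c M) (insert d K) (d :: bs)) := by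
  cases h with
  | win c A hcB hcM hcK hA hAM => exact ⟨c, hcB, hcM, hcK, Or.inl ⟨A, hA, hAM⟩⟩
  | step c hcB hcM hcK h => exact ⟨c, hcB, hcM, hcK, Or.inr h⟩

theorem MWinU.not_zero {M K : Finset C} {bs : List C} : ¬ MWinU B W bad 0 M K bs := by
  intro h
  cases h

/-- A choice of Maker's move in every position that is won with excused lines. -/
theorem exists_pickU (hB : ∀ F : Finset C, ∃ d ∈ B, d ∉ F) :
    ∃ pick : ℕ → Finset C → Finset C → List C → C, ∀ n M K bs,
      MWinU B W bad (n + 1) M K bs →
      pick n M K bs ∈ B ∧ pick n M K bs ∉ M ∧ pick n M K bs ∉ K ∧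
      ((∃ A ∈ W, A ⊆ insert (pick n M K bs) M) ∨
        ∀ d ∈ B, d ∉ insert (pick n M K bs) M → d ∉ K → ¬ bad (d :: bs) →
          MWinU B W bad n (insert (pick n M K bs) M) (insert d K) (d :: bs)) := by
  have hex : ∀ n M K bs, ∃ c : C, MWinU B W bad (n + 1) M K bs →
      c ∈ B ∧ c ∉ M ∧ c ∉ K ∧ ((∃ A ∈ W, A ⊆ insert c M) ∨
        ∀ d ∈ B, d ∉ insert c M → d ∉ K → ¬ bad (d :: bs) →
          MWinU B W bad n (insert c M) (insert d K) (d :: bs)) := by
    intro n M K bs
    by_cases h : MWinU B W bad (n + 1) M K bs
    · obtain ⟨c, hc⟩ := h.exists_move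
      exact ⟨c, fun _ => hc⟩
    · obtain ⟨d, -, -⟩ := hB ∅
      exact ⟨d, fun h' => absurd h' h⟩
  choose pick hpick using hex
  exact ⟨pick, hpick⟩

/-- The invariant of the play of the position-following strategy: as long as Breaker's replies
never form an excused line, Maker owns a winning set after at most `T` moves. -/
theorem play_invariantU (hB : ∀ F : Finset C, ∃ d ∈ B, d ∉ F)
    (pick : ℕ → Finset C → Finset C → List C → C)
    (hpick : ∀ n M K bs, MWinU B W bad (n + 1) M K bs →
      pick n M K bs ∈ B ∧ pick n M K bs ∉ M ∧ pick n M K bs ∉ K ∧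
      ((∃ A ∈ W, A ⊆ insert (pick n M K bs) M) ∨
        ∀ d ∈ B, d ∉ insert (pick n M K bs) M → d ∉ K → ¬ bad (d :: bs) →
          MWinU B W bad n (insert (pick n M K bs) M) (insert d K) (d :: bs)))
    (mv : List C → List C → C) (T : ℕ)
    (hmv : ∀ hs bs, mv hs bs = pick (T - 1 - hs.length) hs.toFinset bs.toFinset bs)
    {s : List C → C} (hs : LegalStrategy B s)
    (hw0 : MWinU B W bad T ∅ ∅ [])
    (hnb : ∀ k, ¬ bad (replies s (makerPlay (stratOf mv) s k))) :
    ∃ k, k ≤ T ∧ LegalPlay B s (makerPlay (stratOf mv) s k) ∧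
      ∃ A ∈ W, A ⊆ (makerPlay (stratOf mv) s k).toFinset := by
  have key : ∀ i, i ≤ T →
      (∃ k, k ≤ T ∧ LegalPlay B s (makerPlay (stratOf mv) s k) ∧
        ∃ A ∈ W, A ⊆ (makerPlay (stratOf mv) s k).toFinset) ∨
      (LegalPlay B s (makerPlay (stratOf mv) s i) ∧
        MWinU B W bad (T - i) (makerPlay (stratOf mv) s i).toFinset
          (replies s (makerPlay (stratOf mv) s i)).toFinset
          (replies s (makerPlay (stratOf mv) s i))) := by
    intro i
    induction i with
    | zero =>
      intro _
      exact Or.inr ⟨trivial, hw0⟩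
    | succ i ih =>
      intro hi
      rcases ih (by omega) with hwon | ⟨hl, hw⟩
      · exact Or.inl hwon
      · have hlen : (makerPlay (stratOf mv) s i).length = i := length_makerPlay _ _ _
        have hnext : makerPlay (stratOf mv) s (i + 1) =
            mv (makerPlay (stratOf mv) s i) (replies s (makerPlay (stratOf mv) s i)) ::
              makerPlay (stratOf mv) s i := makerPlay_succ mv s i
        have hnb1 := hnb (i + 1)
        obtain ⟨P, hP⟩ : ∃ P, P = makerPlay (stratOf mv) s i := ⟨_, rfl⟩
        rw [← hP] at hl hw hlen hnext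
        have hT : T - i = (T - 1 - i) + 1 := by omega
        rw [hT] at hw
        have hmvP : mv P (replies s P) =
            pick (T - 1 - i) P.toFinset (replies s P).toFinset (replies s P) := by
          rw [hmv P (replies s P), hlen]
        rw [hmvP] at hnext
        obtain ⟨hcB, hcM, hcK, hcase⟩ := hpick _ _ _ _ hw
        obtain ⟨c, hc⟩ :
            ∃ c, c = pick (T - 1 - i) P.toFinset (replies s P).toFinset (replies s P) :=
          ⟨_, rfl⟩
        rw [← hc] at hnext hcB hcM hcK hcase
        rw [hnext] at hnb1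
        have hlegal : LegalPlay B s (c :: P) :=
          ⟨hl, hcB, fun h => hcM (List.mem_toFinset.mpr h),
            fun h => hcK (List.mem_toFinset.mpr h)⟩
        rcases hcase with ⟨A, hA, hAM⟩ | hstep
        · refine Or.inl ⟨i + 1, hi, ?_, A, hA, ?_⟩
          · rw [hnext]
            exact hlegal
          · rw [hnext, List.toFinset_cons]
            exact hAM
        · obtain ⟨hdB, hdP, hdR⟩ := legal_reply hB hs hlegal
          refine Or.inr ⟨?_, ?_⟩
          · rw [hnext]
            exact hlegal
          · rw [hnext]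
            have hrep : replies s (c :: P) = s (c :: P) :: replies s P := rfl
            rw [hrep] at hnb1
            rw [hrep, List.toFinset_cons, List.toFinset_cons]
            have hT' : T - (i + 1) = T - 1 - i := by omega
            rw [hT']
            refine hstep _ hdB ?_ ?_ hnb1
            · rw [← List.toFinset_cons, List.mem_toFinset]
              exact hdP
            · rw [List.mem_toFinset]
              exact hdR
  rcases key T (le_refl T) with hwon | ⟨_, hw⟩
  · exact hwon
  · have h0 : T - T = 0 := by omega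
    rw [h0] at hw
    exact absurd hw MWinU.not_zero

/-- **Bridge.** On a board not exhausted by finitely many cells, a win from the empty position
within `N` moves with the lines of `bad` excused, all of length `j`, gives a Maker strategy that
wins within `N` moves against every legal Breaker strategy whose first `j` replies do not form a
line of `bad`. -/
theorem makerWinsUnless_of_MWinU (hB : ∀ F : Finset C, ∃ d ∈ B, d ∉ F) {N j : ℕ}
    {bad : Set (List C)} (hlen : ∀ l ∈ bad, l.length = j)
    (h : MWinU B W (fun l => l ∈ bad) N ∅ ∅ []) : MakerWinsUnless N B W j bad := by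
  obtain ⟨pick, hpick⟩ := exists_pickU (W := W) (bad := fun l => l ∈ bad) hB
  obtain ⟨mv, hmv⟩ : ∃ mv : List C → List C → C,
      mv = fun hs bs => pick (N - 1 - hs.length) hs.toFinset bs.toFinset bs := ⟨_, rfl⟩
  refine ⟨stratOf mv, fun s hs hgood => ?_⟩
  refine play_invariantU hB pick hpick mv N (fun hs' bs => by rw [hmv]) hs h ?_
  intro k hk
  have h1 := hlen _ hk
  rw [length_replies, length_makerPlay] at h1
  rw [h1] at hk
  exact hgood hk

end general

/-- Wins with excused lines of the Snaky game in the plane are preserved by the symmetries of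
the grid that preserve the excused lines. -/
theorem MWinU.gridSym {bad : List (ℤ × ℤ) → Prop} {a b : ℤ} (ha : a = 1 ∨ a = -1)
    (hb : b = 1 ∨ b = -1) (sw : Bool) (t : ℤ × ℤ)
    (hbad : ∀ l, bad l → bad (l.map (Vale.Agent.Lib.P062.gridSym a b sw t))) {n : ℕ}
    {M K : Finset (ℤ × ℤ)} {bs : List (ℤ × ℤ)}
    (h : MWinU (Set.univ : Set (ℤ × ℤ)) {A | IsSnakyCopy A} bad n M K bs) :
    MWinU (Set.univ : Set (ℤ × ℤ)) {A | IsSnakyCopy A} bad n
      (M.image (Vale.Agent.Lib.P062.gridSym a b sw t))
      (K.image (Vale.Agent.Lib.P062.gridSym a b sw t))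
      (bs.map (Vale.Agent.Lib.P062.gridSym a b sw t)) := by
  refine MWinU.image_equiv (gridSymEquiv a b ha hb sw t) (fun c => ?_) (fun A hA => ?_) hbad h
  · simp
  · exact isSnakyCopy_image_gridSym ha hb sw t hA

end Vale.Agent.Lib.P062
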