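import Vale.Agent.Lib.P062.MaskSym
import Vale.Agent.Lib.P062.Unless

/-!
# Book nodes (P062)

A book node is a position (bitmasks `M`, `K`, Maker to move) together with a move `m` of Maker,
a checked proof tree for the position after `m` in which Breaker does not answer inside a zone
`z0`, checked proof trees for some replies of Breaker, a list of symmetries of the position after
`m`, and a list of `holes`: replies that are not treated by the proof trees.  `bookNode` combines
these into a win with excused lines (`WonU`), provided that the holes are treated separately.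
-/

namespace Vale.Agent.Lib.P062

/-- All listed replies `(b, z, n)` to the position `M`, `K` are won with zone `z` within
`n ≤ N` moves. -/
def RepsWon (M K N : ℕ) : List (ℕ × ℕ × ℕ) → Prop
  | [] => True
  | r :: rs => (Won M (K ||| 1 <<< r.1) r.2.1 r.2.2 ∧ r.2.2 ≤ N) ∧ RepsWon M K N rs

theorem RepsWon.mem {M K N : ℕ} : ∀ {l : List (ℕ × ℕ × ℕ)}, RepsWon M K N l →
    ∀ r ∈ l, Won M (K ||| 1 <<< r.1) r.2.1 r.2.2 ∧ r.2.2 ≤ N
  | [], _, r, hr => absurd hr List.not_mem_nil
  | r0 :: rs, h, r, hr => by
    rcases List.mem_cons.mp hr with rfl | hr'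
    · exact h.1
    · exact RepsWon.mem h.2 r hr'

theorem RepsWon.nil {M K N : ℕ} : RepsWon M K N [] := trivial

theorem RepsWon.cons {M K K' N b z n : ℕ} {rs : List (ℕ × ℕ × ℕ)} (hK : K ||| 1 <<< b = K')
    (h : Won M K' z n) (hn : n ≤ N) (hrs : RepsWon M K N rs) : RepsWon M K N ((b, z, n) :: rs) := by
  subst hK
  exact ⟨⟨h, hn⟩, hrs⟩

theorem RepsWon.of_forall {M K N : ℕ} : ∀ {l : List (ℕ × ℕ × ℕ)},
    (∀ r ∈ l, Won M (K ||| 1 <<< r.1) r.2.1 r.2.2 ∧ r.2.2 ≤ N) → RepsWon M K N l
  | [], _ => trivial
  | r0 :: _, h =>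
    ⟨h r0 List.mem_cons_self, RepsWon.of_forall (fun r hr => h r (List.mem_cons_of_mem _ hr))⟩

/-- The reply with code `c` is covered by the listed reply `(b, z, n)` under one of the listed
symmetries: its image is `b` or lies outside the zone `z`. -/
def coveredSym (syms : List ℕ) (c : ℕ) (r : ℕ × ℕ × ℕ) : Bool :=
  syms.any fun i => symCode i c == r.1 || !(r.2.1.testBit (symCode i c))

/-- The test of a book node: the listed symmetries fix the position, and every reply inside the
zone `z0` is a hole or is covered by a listed reply. -/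
def nodeOk (M K z0 : ℕ) (reps : List (ℕ × ℕ × ℕ)) (syms holes : List ℕ) : Bool :=
  decide (z0 < 2 ^ 729) && decide (M < 2 ^ 729) && decide (K < 2 ^ 729) &&
    syms.all (fun i => decide (i < 8) && symMask i M == M && symMask i K == K) &&
    (List.range 729).all fun c =>
      !(z0.testBit c) || M.testBit c || K.testBit c || holes.contains c ||
        reps.any (coveredSym syms c)

theorem gridSym_inv_comp {a b : ℤ} (ha : a = 1 ∨ a = -1) (hb : b = 1 ∨ b = -1) (sw : Bool) :
    gridSym (if sw then b else a) (if sw then a else b) sw (0, 0) ∘ gridSym a b sw (0, 0) = id := by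
  funext p
  exact gridSym_inv ha hb sw p

/-- A set of cells whose bitmask is fixed by the `i`-th symmetry is fixed by its inverse. -/
theorem image_inv_of_symMask {i m : ℕ} (hi : i < 8) (hm : m < 2 ^ 729) (h : symMask i m = m) :
    (cellsOf m).image (gridSym (if symSw i then symB i else symA i)
      (if symSw i then symA i else symB i) (symSw i) (0, 0)) = cellsOf m := by
  have h1 := cellsOf_symMask hi hm
  rw [h] at h1
  conv_lhs => rw [h1]
  rw [Finset.image_image, gridSym_inv_comp (symA_sq i) (symB_sq i), Finset.image_id]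

/-- **Soundness of the node test.** Every reply that is not a hole leads to a won position. -/
theorem node_sound {M K z0 n0 N : ℕ} {reps : List (ℕ × ℕ × ℕ)} {syms holes : List ℕ}
    (hnull : Won M K z0 n0) (hn0 : n0 ≤ N) (hreps : RepsWon M K N reps)
    (hok : nodeOk M K z0 reps syms holes = true) :
    ∀ d : ℤ × ℤ, d ∉ cellsOf M → d ∉ cellsOf K → (∀ c ∈ holes, d ≠ cellOf c) →
      MWin (Set.univ : Set (ℤ × ℤ)) snakyCopies N (cellsOf M) (insert d (cellsOf K)) := by
  intro d hdM hdK hholes
  unfold nodeOk at hok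
  simp only [Bool.and_eq_true, decide_eq_true_eq, List.all_eq_true, beq_iff_eq] at hok
  obtain ⟨⟨⟨⟨hz0, hM⟩, hK⟩, hsyms⟩, hall⟩ := hok
  unfold Won at hnull
  by_cases hz : d ∈ cellsOf z0
  · obtain ⟨c, hc, rfl⟩ := mem_cellsOf.mp hz
    have hc729 : c < 729 := lt_of_testBit_of_lt_pow hc hz0
    have hcond := hall c (List.mem_range.mpr hc729)
    simp only [Bool.or_eq_true, Bool.not_eq_true', List.contains_iff_mem] at hcond
    rcases hcond with (((hc1 | hc2) | hc3) | hc4) | hc5
    · rw [hc] at hc1
      exact absurd hc1 (by simp)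
    · exact absurd (cellOf_mem_cellsOf.mpr hc2) hdM
    · exact absurd (cellOf_mem_cellsOf.mpr hc3) hdK
    · exact absurd rfl (hholes c hc4)
    · rw [List.any_eq_true] at hc5
      obtain ⟨r, hr, hcov⟩ := hc5
      unfold coveredSym at hcov
      rw [List.any_eq_true] at hcov
      obtain ⟨i, hi, hcond⟩ := hcov
      obtain ⟨⟨hi8, hsM⟩, hsK⟩ := hsyms i hi
      obtain ⟨hrw, hrN⟩ := hreps.mem r hr
      unfold Won at hrw
      rw [cellsOf_insert] at hrw
      have h1 : MWin (Set.univ : Set (ℤ × ℤ)) snakyCopies r.2.2 (cellsOf M)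
          (insert (cellOf (symCode i c)) (cellsOf K)) := by
        refine hrw.apply _ ?_
        intro x hx hxZ
        rcases Finset.mem_insert.mp hx with rfl | hxK
        · rw [Bool.or_eq_true] at hcond
          rcases hcond with hb | hzb
          · rw [beq_iff_eq] at hb
            rw [hb]
            exact Finset.mem_insert_self _ _
          · exfalso
            rw [Bool.not_eq_true'] at hzb
            exact (cellOf_notMem_cellsOf.mpr hzb) hxZ
        · exact Finset.mem_insert_of_mem hxK
      have h2 := (h1.mono_n hrN).gridSym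
        (a := if symSw i then symB i else symA i) (b := if symSw i then symA i else symB i)
        (by split <;> first | exact symA_sq i | exact symB_sq i)
        (by split <;> first | exact symA_sq i | exact symB_sq i) (symSw i) (0, 0)
      rw [Finset.image_insert, image_inv_of_symMask hi8 hM hsM, image_inv_of_symMask hi8 hK hsK,
        symCode_spec hi8 hc729, gridSym_inv (symA_sq i) (symB_sq i)] at h2
      exact h2
  · refine (hnull.apply _ ?_).mono_n hn0
    intro x hx hxZ
    rcases Finset.mem_insert.mp hx with rfl | hxK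
    · exact absurd hxZ hz
    · exact hxK

/-- `WonU bad M K bs n`: in the position with Maker's cells `M` and Breaker's cells `K`
(bitmasks), Breaker's replies so far `bs`, Maker to move, Maker wins the Snaky game in the plane
within `n` moves except possibly in the lines of play excused by `bad`. -/
def WonU (bad : List (ℤ × ℤ) → Prop) (M K : ℕ) (bs : List (ℤ × ℤ)) (n : ℕ) : Prop :=
  MWinU (Set.univ : Set (ℤ × ℤ)) snakyCopies bad n (cellsOf M) (cellsOf K) bs

theorem WonU.mono_n {bad : List (ℤ × ℤ) → Prop} {M K n n' : ℕ} {bs : List (ℤ × ℤ)}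
    (h : WonU bad M K bs n) (hn : n ≤ n') : WonU bad M K bs n' :=
  MWinU.mono_n h hn

theorem WonU.congr {bad : List (ℤ × ℤ) → Prop} {M K M' K' n : ℕ} {bs bs' : List (ℤ × ℤ)}
    (h : WonU bad M K bs n) (hM : M = M') (hK : K = K') (hbs : bs = bs') :
    WonU bad M' K' bs' n := by
  rw [← hM, ← hK, ← hbs]
  exact h

/-- **Book node.** Maker plays the cell with code `m`; the replies that are not holes are won by
the checked proof trees, the holes by `hholes`. -/
theorem bookNode {bad : List (ℤ × ℤ) → Prop} {M K m z0 n0 N : ℕ} {reps : List (ℕ × ℕ × ℕ)}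
    {syms holes : List ℕ} {bs : List (ℤ × ℤ)}
    (hmM : M.testBit m = false) (hmK : K.testBit m = false)
    (hnull : Won (M ||| 1 <<< m) K z0 n0) (hn0 : n0 ≤ N)
    (hreps : RepsWon (M ||| 1 <<< m) K N reps)
    (hok : nodeOk (M ||| 1 <<< m) K z0 reps syms holes = true)
    (hholes : ∀ c ∈ holes, ¬ bad (cellOf c :: bs) →
      WonU bad (M ||| 1 <<< m) (K ||| 1 <<< c) (cellOf c :: bs) N) :
    WonU bad M K bs (N + 1) := by
  unfold WonU
  refine MWinU.step (cellOf m) (Set.mem_univ _) (cellOf_notMem_cellsOf.mpr hmM)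
    (cellOf_notMem_cellsOf.mpr hmK) ?_
  intro d _ hdM hdK hnb
  rw [← cellsOf_insert] at hdM ⊢
  by_cases hh : ∃ c ∈ holes, d = cellOf c
  · obtain ⟨c, hc, rfl⟩ := hh
    have h1 := hholes c hc hnb
    unfold WonU at h1
    rw [cellsOf_insert K c] at h1
    exact h1
  · push Not at hh
    exact (node_sound hnull hn0 hreps hok d hdM hdK hh).toU _

/-- `bookNode` with the bitmask `MA` of Maker's cells after the move given explicitly. -/
theorem bookNode' {bad : List (ℤ × ℤ) → Prop} {M K m MA z0 n0 N : ℕ}
    {reps : List (ℕ × ℕ × ℕ)} {syms holes : List ℕ} {bs : List (ℤ × ℤ)}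
    (hMA : M ||| 1 <<< m = MA) (hmM : M.testBit m = false) (hmK : K.testBit m = false)
    (hnull : Won MA K z0 n0) (hn0 : n0 ≤ N) (hreps : RepsWon MA K N reps)
    (hok : nodeOk MA K z0 reps syms holes = true)
    (hholes : ∀ c ∈ holes, ¬ bad (cellOf c :: bs) →
      WonU bad MA (K ||| 1 <<< c) (cellOf c :: bs) N) :
    WonU bad M K bs (N + 1) := by
  subst hMA
  exact bookNode hmM hmK hnull hn0 hreps hok hholes

/-- A win with excused lines stays one after a symmetry of the grid fixing `(0, 0)` that
preserves the excused lines. -/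
theorem WonU.sym {bad : List (ℤ × ℤ) → Prop} {M K n : ℕ} {bs : List (ℤ × ℤ)} (i : ℕ)
    (hi : i < 8) (hM : M >>> 729 = 0) (hK : K >>> 729 = 0)
    (hbad : ∀ l, bad l → bad (l.map (gridSym (symA i) (symB i) (symSw i) (0, 0))))
    (h : WonU bad M K bs n) :
    WonU bad (symMask i M) (symMask i K)
      (bs.map (gridSym (symA i) (symB i) (symSw i) (0, 0))) n := by
  unfold WonU at h ⊢
  rw [cellsOf_symMask hi (lt_pow_of_shiftRight_eq_zero hM),
    cellsOf_symMask hi (lt_pow_of_shiftRight_eq_zero hK)]
  exact h.gridSym (symA_sq i) (symB_sq i) (symSw i) (0, 0) hbad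

/-- From the empty position to a Maker strategy. -/
theorem makerWinsUnless_of_WonU {bad : Set (List (ℤ × ℤ))} {N j : ℕ}
    (hlen : ∀ l ∈ bad, l.length = j) (h : WonU (fun l => l ∈ bad) 0 0 [] N) :
    MakerWinsUnless N (Set.univ : Set (ℤ × ℤ)) {A | IsSnakyCopy A} j bad := by
  unfold WonU at h
  rw [cellsOf_zero] at h
  exact makerWinsUnless_of_MWinU univ_not_exhausted hlen h

end Vale.Agent.Lib.P062
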