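import Vale.Agent.Lib.P062.Book

/-!
# Books without excused lines (P062)

A win with no excused line is a win; from the empty position it gives a winning strategy of Maker.
-/

namespace Vale.Agent.Lib.P062

/-- A win with no excused line is a win. -/
theorem MWinU.toMWin {C : Type} [DecidableEq C] {B : Set C} {W : Set (Finset C)} {n : ℕ}
    {M K : Finset C} {bs : List C} (h : MWinU B W (fun _ => False) n M K bs) :
    MWin B W n M K := by
  induction h with
  | win c A hcB hcM hcK hA hAM => exact MWin.win c A hcB hcM hcK hA hAM
  | step c hcB hcM hcK h ih =>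
    exact MWin.step c hcB hcM hcK (fun d hdB hdM hdK => ih d hdB hdM hdK (fun hf => hf))

/-- From the empty position, with no excused line, to a winning strategy of Maker. -/
theorem makerWinsIn_of_WonU {N : ℕ} (h : WonU (fun _ => False) 0 0 [] N) :
    MakerWinsIn N (Set.univ : Set (ℤ × ℤ)) {A | IsSnakyCopy A} := by
  unfold WonU at h
  rw [cellsOf_zero] at h
  exact makerWinsIn_of_MWin univ_not_exhausted h.toMWin

end Vale.Agent.Lib.P062
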