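import Vale.Agent.Lib.P062.Mask

/-!
# A checker for Maker-win proof trees of the Snaky game (P062)

A proof tree is a list of natural numbers (one number per node, in the order of a depth-first
walk).  `chk lem fuel M K toks` walks the tree for the position in which Maker owns the cells with
bitmask `M`, Breaker owns the cells with bitmask `K`, and Maker is to move; it returns the bitmask
of a zone, a number of moves and the unread rest of the list.  `chk_sound` says that Maker then
wins the position within that number of moves, whatever Breaker owns outside the zone.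

Node kinds (the two lowest bits of the node number; bits 2 to 11 are Maker's move `m`):
* kind 0, double threat: after `m` the two cells `t1 ≠ t2` each complete a copy of Snaky;
* kind 1, threat: after `m` the cell `t` completes a copy, Breaker has to take `t`, and the
  subtree treats the resulting position;
* kind 2, quiet move: the first subtree treats the position after `m` when Breaker does not
  answer inside its zone `z0`; then follow pairs (reply `b`, subtree for the reply `b`), and every
  free cell of `z0` must be some `b` or lie outside the zone of one of these subtrees;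
* kind 3, reference: the position is entry number `tok / 4` of the table `lem` of positions
  that are already known to be won.
-/

namespace Vale.Agent.Lib.P062

/-- The winning sets of the Snaky game: the allowed copies of Snaky. -/
abbrev snakyCopies : Set (Finset (ℤ × ℤ)) := {A | IsSnakyCopy A}

/-- `Won M K Z n`: in the position with Maker's cells `M` and Breaker's cells `K` (bitmasks), Maker
to move, Maker wins the Snaky game in the plane within `n` moves whatever Breaker owns outside
the zone `Z`. -/
def Won (M K Z n : ℕ) : Prop :=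
  ZoneWin (Set.univ : Set (ℤ × ℤ)) snakyCopies n (cellsOf M) (cellsOf K) (cellsOf Z)

/-- Test that `copyMask o s` is a copy of Snaky all of whose cells are in `X`. -/
def copyIn (o s X : ℕ) : Bool :=
  decide (s % 27 + copyWidth o ≤ 27) && (copyMask o s &&& X == copyMask o s)

theorem copyIn_sound {o s X : ℕ} (h : copyIn o s X = true) :
    ∃ A ∈ snakyCopies, A ⊆ cellsOf X := by
  unfold copyIn at h
  rw [Bool.and_eq_true, decide_eq_true_eq, beq_iff_eq] at h
  exact copy_subset_of_and h.1 h.2

/-- The test of a double threat at `t1`, `t2` in the position `(M2, K)` after Maker's move. -/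
def dblOk (M2 K t1 t2 o1 s1 o2 s2 : ℕ) : Bool :=
  (t1 != t2) && !(M2.testBit t1) && !(K.testBit t1) && !(M2.testBit t2) && !(K.testBit t2)
    && copyIn o1 s1 (M2 ||| 1 <<< t1) && copyIn o2 s2 (M2 ||| 1 <<< t2)

/-- The test of a threat at `t` in the position `(M2, K)` after Maker's move. -/
def thrOk (M2 K t o s : ℕ) : Bool :=
  !(M2.testBit t) && !(K.testBit t) && copyIn o s (M2 ||| 1 <<< t)

/-- Kind 0: a double threat. -/
def chk0 (M K tok : ℕ) (rest : List ℕ) : Option (ℕ × ℕ × List ℕ) :=
  if !(M.testBit ((tok >>> 2) % 1024)) && !(K.testBit ((tok >>> 2) % 1024))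
      && dblOk (M ||| 1 <<< ((tok >>> 2) % 1024)) K ((tok >>> 25) % 1024) ((tok >>> 48) % 1024)
        ((tok >>> 12) % 8) ((tok >>> 15) % 1024) ((tok >>> 35) % 8) ((tok >>> 38) % 1024)
  then some (1 <<< ((tok >>> 2) % 1024) ||| 1 <<< ((tok >>> 25) % 1024)
    ||| 1 <<< ((tok >>> 48) % 1024), 2, rest)
  else none

/-- Kind 1: a threat with its forced reply. -/
def chk1 (rec : ℕ → ℕ → List ℕ → Option (ℕ × ℕ × List ℕ)) (M K tok : ℕ) (rest : List ℕ) :
    Option (ℕ × ℕ × List ℕ) :=
  if !(M.testBit ((tok >>> 2) % 1024)) && !(K.testBit ((tok >>> 2) % 1024))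
      && thrOk (M ||| 1 <<< ((tok >>> 2) % 1024)) K ((tok >>> 25) % 1024)
        ((tok >>> 12) % 8) ((tok >>> 15) % 1024)
  then
    match rec (M ||| 1 <<< ((tok >>> 2) % 1024)) (K ||| 1 <<< ((tok >>> 25) % 1024)) rest with
    | none => none
    | some (zj, nj, rest') =>
      some (zj ||| 1 <<< ((tok >>> 2) % 1024) ||| 1 <<< ((tok >>> 25) % 1024), nj + 1, rest')
  else none

/-- The replies of a quiet move: `k` pairs (reply, subtree).  Accumulates the union `Z` of the
zones, the bitmask `cov` of the covered replies and the maximal number `n` of moves. -/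
def chkAlts (rec : ℕ → ℕ → List ℕ → Option (ℕ × ℕ × List ℕ)) (M2 K z0 : ℕ) :
    ℕ → List ℕ → ℕ → ℕ → ℕ → Option (ℕ × ℕ × ℕ × List ℕ)
  | 0, toks, Z, cov, n => some (Z, cov, n, toks)
  | _ + 1, [], _, _, _ => none
  | k + 1, b :: toks, Z, cov, n =>
    match rec M2 (K ||| 1 <<< b) toks with
    | none => none
    | some (zb, nb, rest) =>
      chkAlts rec M2 K z0 k rest (Z ||| zb) (cov ||| 1 <<< b ||| (z0 ^^^ (z0 &&& zb))) (max n nb)

/-- Kind 2: a quiet move. -/
def chk2 (rec : ℕ → ℕ → List ℕ → Option (ℕ × ℕ × List ℕ)) (M K tok : ℕ) (rest : List ℕ) :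
    Option (ℕ × ℕ × List ℕ) :=
  if !(M.testBit ((tok >>> 2) % 1024)) && !(K.testBit ((tok >>> 2) % 1024)) then
    match rec (M ||| 1 <<< ((tok >>> 2) % 1024)) K rest with
    | none => none
    | some (z0, n0, rest1) =>
      match chkAlts rec (M ||| 1 <<< ((tok >>> 2) % 1024)) K z0 (tok >>> 12) rest1
        (z0 ||| 1 <<< ((tok >>> 2) % 1024)) 0 n0 with
      | none => none
      | some (Z, cov, n, rest2) =>
        if z0 &&& (M ||| 1 <<< ((tok >>> 2) % 1024) ||| K ||| cov) == z0
        then some (Z, n + 1, rest2) else none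
  else none

/-- Kind 3: a reference to the table of known wins. -/
def chkLem (lem : List (ℕ × ℕ × ℕ × ℕ)) (M K tok : ℕ) (rest : List ℕ) :
    Option (ℕ × ℕ × List ℕ) :=
  match lem[tok >>> 2]? with
  | none => none
  | some (M', K', Z', n') => if M' == M && K' == K then some (Z', n', rest) else none

/-- The proof-tree checker. -/
def chk (lem : List (ℕ × ℕ × ℕ × ℕ)) : ℕ → ℕ → ℕ → List ℕ → Option (ℕ × ℕ × List ℕ)
  | 0, _, _, _ => none
  | _ + 1, _, _, [] => none
  | f + 1, M, K, tok :: rest =>
    match tok % 4 with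
    | 0 => chk0 M K tok rest
    | 1 => chk1 (chk lem f) M K tok rest
    | 2 => chk2 (chk lem f) M K tok rest
    | _ => chkLem lem M K tok rest

/-- The first `k` 64-bit digits of `x` (lowest first), put in front of `acc`. -/
def unpack : ℕ → ℕ → List ℕ → List ℕ
  | 0, _, acc => acc
  | k + 1, x, acc => x % 18446744073709551616 :: unpack k (x >>> 64) acc

/-- The list of nodes packed in a list of numbers, 256 nodes of 64 bits per number. -/
def unpackAll : List ℕ → List ℕ
  | [] => []
  | x :: xs => unpack 256 x (unpackAll xs)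

/-- `chkOk lem fuel M K toks Z n`: the checker accepts the proof tree `toks` for the position
`(M, K)` with zone `Z` and `n` moves. -/
def chkOk (lem : List (ℕ × ℕ × ℕ × ℕ)) (fuel M K : ℕ) (toks : List ℕ) (Z n : ℕ) : Bool :=
  match chk lem fuel M K toks with
  | none => false
  | some (Z', n', _) => Z' == Z && n' == n

/-! ### Soundness -/

theorem Won.pos {M K Z n : ℕ} (h : Won M K Z n) : ∃ n', n = n' + 1 := by
  rcases n with _ | n'
  · exact absurd h.toMWin MWin.not_zero
  · exact ⟨n', rfl⟩

theorem dbl_sound {M K m t1 t2 o1 s1 o2 s2 : ℕ} (hmM : M.testBit m = false)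
    (hmK : K.testBit m = false) (h : dblOk (M ||| 1 <<< m) K t1 t2 o1 s1 o2 s2 = true) :
    Won M K (1 <<< m ||| 1 <<< t1 ||| 1 <<< t2) 2 := by
  unfold dblOk at h
  simp only [Bool.and_eq_true, Bool.not_eq_true', bne_iff_ne, ne_eq] at h
  obtain ⟨⟨⟨⟨⟨⟨h12, ht1M⟩, ht1K⟩, ht2M⟩, ht2K⟩, hc1⟩, hc2⟩ := h
  obtain ⟨A1, hA1, hA1s⟩ := copyIn_sound hc1
  obtain ⟨A2, hA2, hA2s⟩ := copyIn_sound hc2
  rw [cellsOf_insert, cellsOf_insert] at hA1s hA2s
  have hZ : cellsOf (1 <<< m ||| 1 <<< t1 ||| 1 <<< t2) =
      insert (cellOf t2) (insert (cellOf t1) {cellOf m}) := by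
    rw [cellsOf_insert, cellsOf_insert, cellsOf_bit]
  unfold Won
  rw [hZ]
  refine ZoneWin.double_threat (n := 0) (cellOf m) (cellOf t1) (cellOf t2) A1 A2 (Set.mem_univ _)
    (cellOf_notMem_cellsOf.mpr hmM) (cellOf_notMem_cellsOf.mpr hmK) ?_ ?_
    (Set.mem_univ _) ?_ (cellOf_notMem_cellsOf.mpr ht1K) ?_
    (Set.mem_univ _) ?_ (cellOf_notMem_cellsOf.mpr ht2K) ?_ hA1 hA1s hA2 hA2s
  · simp
  · exact fun heq => h12 (cellOf_injective heq)
  · rw [← cellsOf_insert]
    exact cellOf_notMem_cellsOf.mpr ht1M
  · simp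
  · rw [← cellsOf_insert]
    exact cellOf_notMem_cellsOf.mpr ht2M
  · simp

theorem thr_sound {M K m t o s zj nj : ℕ} (hmM : M.testBit m = false)
    (hmK : K.testBit m = false) (h : thrOk (M ||| 1 <<< m) K t o s = true)
    (hchild : Won (M ||| 1 <<< m) (K ||| 1 <<< t) zj nj) :
    Won M K (zj ||| 1 <<< m ||| 1 <<< t) (nj + 1) := by
  unfold thrOk at h
  simp only [Bool.and_eq_true, Bool.not_eq_true'] at h
  obtain ⟨⟨htM, htK⟩, hc⟩ := h
  obtain ⟨A, hA, hAs⟩ := copyIn_sound hc
  rw [cellsOf_insert, cellsOf_insert] at hAs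
  obtain ⟨n', rfl⟩ := hchild.pos
  unfold Won at hchild ⊢
  rw [cellsOf_insert, cellsOf_insert] at hchild
  have hZ : cellsOf (zj ||| 1 <<< m ||| 1 <<< t) =
      insert (cellOf t) (insert (cellOf m) (cellsOf zj)) := by
    rw [cellsOf_insert, cellsOf_insert]
  rw [hZ]
  refine ZoneWin.threat (cellOf m) (cellOf t) A (Set.mem_univ _)
    (cellOf_notMem_cellsOf.mpr hmM) (cellOf_notMem_cellsOf.mpr hmK) ?_ (Set.mem_univ _) ?_
    (cellOf_notMem_cellsOf.mpr htK) ?_ hA hAs hchild ?_
  · simp
  · rw [← cellsOf_insert]
    exact cellOf_notMem_cellsOf.mpr htM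
  · simp
  · intro x hx
    simp [hx]

theorem alts_sound {rec : ℕ → ℕ → List ℕ → Option (ℕ × ℕ × List ℕ)}
    (hrec : ∀ M K toks Z n rest, rec M K toks = some (Z, n, rest) → Won M K Z n)
    (M2 K z0 : ℕ) : ∀ (k : ℕ) (toks : List ℕ) (Z cov n Z' cov' n' : ℕ) (rest : List ℕ),
      chkAlts rec M2 K z0 k toks Z cov n = some (Z', cov', n', rest) →
      cellsOf Z ⊆ cellsOf Z' ∧ n ≤ n' ∧ ∀ d ∈ cellsOf cov', d ∈ cellsOf cov ∨
        ∃ b Zb, ZoneWin (Set.univ : Set (ℤ × ℤ)) snakyCopies n' (cellsOf M2)
          (insert b (cellsOf K)) Zb ∧ Zb ⊆ cellsOf Z' ∧ (d = b ∨ d ∉ Zb) := by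
  intro k
  induction k with
  | zero =>
    intro toks Z cov n Z' cov' n' rest h
    simp only [chkAlts, Option.some.injEq, Prod.mk.injEq] at h
    obtain ⟨rfl, rfl, rfl, -⟩ := h
    exact ⟨Finset.Subset.refl _, le_rfl, fun d hd => Or.inl hd⟩
  | succ k ih =>
    intro toks Z cov n Z' cov' n' rest h
    cases toks with
    | nil => simp [chkAlts] at h
    | cons b toks =>
      simp only [chkAlts] at h
      cases hr : rec M2 (K ||| 1 <<< b) toks with
      | none => simp [hr] at h
      | some r =>
        obtain ⟨zb, nb, rest1⟩ := r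
        simp only [hr] at h
        obtain ⟨hZ, hn, hcov⟩ := ih rest1 _ _ _ Z' cov' n' rest h
        have hwon := hrec _ _ _ _ _ _ hr
        unfold Won at hwon
        rw [cellsOf_insert] at hwon
        rw [cellsOf_or] at hZ
        refine ⟨fun x hx => hZ (Finset.mem_union_left _ hx), le_trans (le_max_left _ _) hn, ?_⟩
        intro d hd
        rcases hcov d hd with hd' | hd'
        · rw [cellsOf_or, cellsOf_insert, cellsOf_diff] at hd'
          rcases Finset.mem_union.mp hd' with hd1 | hd2
          · rcases Finset.mem_insert.mp hd1 with rfl | hd3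
            · exact Or.inr ⟨cellOf b, cellsOf zb,
                hwon.mono (le_trans (le_max_right _ _) hn) (Finset.Subset.refl _)
                  (Finset.Subset.refl _),
                fun x hx => hZ (Finset.mem_union_right _ hx), Or.inl rfl⟩
            · exact Or.inl hd3
          · exact Or.inr ⟨cellOf b, cellsOf zb,
              hwon.mono (le_trans (le_max_right _ _) hn) (Finset.Subset.refl _)
                (Finset.Subset.refl _),
              fun x hx => hZ (Finset.mem_union_right _ hx),
              Or.inr (Finset.mem_sdiff.mp hd2).2⟩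
        · exact Or.inr hd'

theorem chk0_sound {M K tok : ℕ} {rest : List ℕ} {Z n : ℕ} {rest' : List ℕ}
    (h : chk0 M K tok rest = some (Z, n, rest')) : Won M K Z n := by
  unfold chk0 at h
  split at h
  · rename_i hc
    simp only [Bool.and_eq_true, Bool.not_eq_true'] at hc
    simp only [Option.some.injEq, Prod.mk.injEq] at h
    obtain ⟨rfl, rfl, -⟩ := h
    exact dbl_sound hc.1.1 hc.1.2 hc.2
  · exact absurd h (by simp)

theorem chk1_sound {rec : ℕ → ℕ → List ℕ → Option (ℕ × ℕ × List ℕ)}
    (hrec : ∀ M K toks Z n rest, rec M K toks = some (Z, n, rest) → Won M K Z n)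
    {M K tok : ℕ} {rest : List ℕ} {Z n : ℕ} {rest' : List ℕ}
    (h : chk1 rec M K tok rest = some (Z, n, rest')) : Won M K Z n := by
  unfold chk1 at h
  split at h
  · rename_i hc
    simp only [Bool.and_eq_true, Bool.not_eq_true'] at hc
    split at h
    · exact absurd h (by simp)
    · rename_i zj nj rest1 hr
      simp only [Option.some.injEq, Prod.mk.injEq] at h
      obtain ⟨rfl, rfl, -⟩ := h
      exact thr_sound hc.1.1 hc.1.2 hc.2 (hrec _ _ _ _ _ _ hr)
  · exact absurd h (by simp)

theorem chk2_sound {rec : ℕ → ℕ → List ℕ → Option (ℕ × ℕ × List ℕ)}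
    (hrec : ∀ M K toks Z n rest, rec M K toks = some (Z, n, rest) → Won M K Z n)
    {M K tok : ℕ} {rest : List ℕ} {Z n : ℕ} {rest' : List ℕ}
    (h : chk2 rec M K tok rest = some (Z, n, rest')) : Won M K Z n := by
  unfold chk2 at h
  split at h
  · rename_i hc
    simp only [Bool.and_eq_true, Bool.not_eq_true'] at hc
    obtain ⟨hmM, hmK⟩ := hc
    split at h
    · exact absurd h (by simp)
    · rename_i z0 n0 rest1 hr0
      split at h
      · exact absurd h (by simp)
      · rename_i Z1 cov n1 rest2 hra
        split at h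
        · rename_i hcov
          simp only [Option.some.injEq, Prod.mk.injEq] at h
          obtain ⟨rfl, rfl, -⟩ := h
          have hpass := hrec _ _ _ _ _ _ hr0
          obtain ⟨hZ, hn, hcv⟩ := alts_sound hrec _ _ _ _ _ _ _ _ _ _ _ _ hra
          rw [beq_iff_eq] at hcov
          have hsub := cellsOf_subset hcov
          rw [cellsOf_or, cellsOf_or] at hsub
          rw [cellsOf_insert] at hZ
          unfold Won at hpass ⊢
          rw [cellsOf_insert] at hpass hsub hcv
          refine ZoneWin.step_cover (Z0 := cellsOf z0) (cellOf ((tok >>> 2) % 1024))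
            (Set.mem_univ _) (cellOf_notMem_cellsOf.mpr hmM) (cellOf_notMem_cellsOf.mpr hmK)
            (hZ (Finset.mem_insert_self _ _))
            (fun x hx => hZ (Finset.mem_insert_of_mem hx))
            (hpass.mono hn (Finset.Subset.refl _) (Finset.Subset.refl _)) ?_
          intro d hd _ hdM hdK
          have hd' := hsub hd
          rcases Finset.mem_union.mp hd' with hd1 | hd2
          · rcases Finset.mem_union.mp hd1 with hd3 | hd4
            · exact absurd hd3 hdM
            · exact absurd hd4 hdK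
          · rcases hcv d hd2 with hd5 | hd5
            · rw [cellsOf_zero] at hd5
              exact absurd hd5 (Finset.notMem_empty _)
            · exact hd5
        · exact absurd h (by simp)
  · exact absurd h (by simp)

theorem chkLem_sound {lem : List (ℕ × ℕ × ℕ × ℕ)}
    (hlem : ∀ e ∈ lem, Won e.1 e.2.1 e.2.2.1 e.2.2.2)
    {M K tok : ℕ} {rest : List ℕ} {Z n : ℕ} {rest' : List ℕ}
    (h : chkLem lem M K tok rest = some (Z, n, rest')) : Won M K Z n := by
  unfold chkLem at h
  split at h
  · exact absurd h (by simp)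
  · rename_i M' K' Z' n' hget
    split at h
    · rename_i hc
      simp only [Bool.and_eq_true, beq_iff_eq] at hc
      simp only [Option.some.injEq, Prod.mk.injEq] at h
      obtain ⟨rfl, rfl, -⟩ := h
      have hmem := List.mem_of_getElem? hget
      have hw := hlem _ hmem
      rw [← hc.1, ← hc.2]
      exact hw
    · exact absurd h (by simp)

/-- **Soundness of the checker.** -/
theorem chk_sound {lem : List (ℕ × ℕ × ℕ × ℕ)}
    (hlem : ∀ e ∈ lem, Won e.1 e.2.1 e.2.2.1 e.2.2.2) :
    ∀ (f M K : ℕ) (toks : List ℕ) (Z n : ℕ) (rest : List ℕ),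
      chk lem f M K toks = some (Z, n, rest) → Won M K Z n := by
  intro f
  induction f with
  | zero =>
    intro M K toks Z n rest h
    simp [chk] at h
  | succ f ih =>
    intro M K toks Z n rest h
    cases toks with
    | nil => simp [chk] at h
    | cons tok toks =>
      simp only [chk] at h
      split at h
      · exact chk0_sound h
      · exact chk1_sound ih h
      · exact chk2_sound ih h
      · exact chkLem_sound hlem h

theorem chkOk_sound {lem : List (ℕ × ℕ × ℕ × ℕ)}
    (hlem : ∀ e ∈ lem, Won e.1 e.2.1 e.2.2.1 e.2.2.2) {fuel M K : ℕ} {toks : List ℕ} {Z n : ℕ}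
    (h : chkOk lem fuel M K toks Z n = true) : Won M K Z n := by
  unfold chkOk at h
  split at h
  · exact absurd h (by simp)
  · rename_i Z' n' rest hr
    simp only [Bool.and_eq_true, beq_iff_eq] at h
    rw [← h.1, ← h.2]
    exact chk_sound hlem _ _ _ _ _ _ _ hr

end Vale.Agent.Lib.P062
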