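import Mathlib

namespace Vale.Agent.Lib.P062

/-- The Snaky hexomino, cells indexed by their lower-left corners. -/
def snaky : Finset (ℤ × ℤ) := {(0, 0), (1, 0), (2, 0), (3, 0), (3, 1), (4, 1)}

/-- `IsSnakyCopy A`: the finite set `A` of cells is an allowed copy `t + R(S)` of Snaky, where `R` is one
of the eight signed permutation matrices (`a, b` are the signs; the two disjuncts are the diagonal and the
anti-diagonal signed permutations) and `t` is a translation. -/
def IsSnakyCopy (A : Finset (ℤ × ℤ)) : Prop :=
  ∃ a b : ℤ, (a = 1 ∨ a = -1) ∧ (b = 1 ∨ b = -1) ∧ ∃ t : ℤ × ℤ,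
    (A = snaky.image (fun p => (t.1 + a * p.1, t.2 + b * p.2)) ∨
     A = snaky.image (fun p => (t.1 + a * p.2, t.2 + b * p.1)))

/-- Breaker's cells after Maker has made the moves `hs` (newest first) and Breaker has answered each of
them with the strategy `s`. A Breaker strategy `s` maps the nonempty list of Maker's moves so far
(newest first) to Breaker's reply. -/
def replies {C : Type} (s : List C → C) : List C → List C
  | [] => []
  | c :: hs => s (c :: hs) :: replies s hs

/-- `LegalPlay B s hs`: the list `hs` of Maker's moves (newest first) is a legal play on the board `B`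
against the Breaker strategy `s`: every Maker move is a cell of `B` that neither player claimed before. -/
def LegalPlay {C : Type} (B : Set C) (s : List C → C) : List C → Prop
  | [] => True
  | c :: hs => LegalPlay B s hs ∧ c ∈ B ∧ c ∉ hs ∧ c ∉ replies s hs

/-- `LegalStrategy B s`: after every legal Maker play, Breaker's reply is a cell of `B` that neither
player has claimed, unless no unclaimed cell of `B` is left (then the game is over). -/
def LegalStrategy {C : Type} (B : Set C) (s : List C → C) : Prop :=
  ∀ c hs, LegalPlay B s (c :: hs) →
    (s (c :: hs) ∈ B ∧ s (c :: hs) ∉ c :: hs ∧ s (c :: hs) ∉ replies s hs) ∨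
    (∀ x ∈ B, x ∈ c :: hs ∨ x ∈ replies s hs)

/-- `BreakerWins B W`: in the Maker-Breaker game on the board `B` with winning sets `W`, Maker moving
first and the players alternately claiming one unclaimed cell, Breaker has a strategy against which
Maker never owns all cells of a winning set. -/
def BreakerWins {C : Type} [DecidableEq C] (B : Set C) (W : Set (Finset C)) : Prop :=
  ∃ s : List C → C, LegalStrategy B s ∧
    ∀ hs, LegalPlay B s hs → ∀ A ∈ W, ¬ (A ⊆ hs.toFinset)

end Vale.Agent.Lib.P062
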