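import Vale.Agent.Lib.P062.Cert.Base

/-!
# A kernel-friendly copy of the proof-tree checker (P062)

`chkF` computes the same function as `chk` (theorem `chkF_eq`), but is written with the
primitive operations on natural numbers and Booleans that the kernel evaluates directly
(`Nat.land`, `Nat.shiftRight`, `Nat.beq`, `cond`, ...), which makes the kernel about five times
faster on the certificates.  `wonE_of_chkOkF` is the drop-in replacement of `wonE_of_chkOk`.
-/

namespace Vale.Agent.Lib.P062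

/-- Bit `c` of `M`. -/
def tbF (M c : ℕ) : Bool := Nat.beq (Nat.land (Nat.shiftRight M c) (nat_lit 1)) (nat_lit 1)

/-- The field `(tok >>> sh) % md` of a node number. -/
def fldF (tok sh md : ℕ) : ℕ := Nat.mod (Nat.shiftRight tok sh) md

/-- The bitmask of the single cell `c`. -/
def bitF (c : ℕ) : ℕ := Nat.shiftLeft (nat_lit 1) c

/-- The eight base masks `copyBase o`, `o < 8`, packed in fields of 128 bits. -/
def copyBaseAllF : ℕ := nat_lit 342882756854281157941754015854456435739785239139677860622551012341368363237162200150611817503677236028791824073249368618356839891264961493569294737692112770704459638725857825618674032987063749873749988802849864668737681860915325363741744156894511784172434396594937217832766741417877665756145815748870159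

/-- `copyBase o` for `o < 8`. -/
def copyBaseF (o : ℕ) : ℕ :=
  Nat.mod (Nat.shiftRight copyBaseAllF (Nat.mul o (nat_lit 128)))
    (nat_lit 340282366920938463463374607431768211456)

/-- `copyWidth o`. -/
def copyWidthF (o : ℕ) : ℕ := cond (Nat.ble o (nat_lit 3)) (nat_lit 5) (nat_lit 2)

/-- `copyMask o s` for `o < 8`. -/
def copyMaskF (o s : ℕ) : ℕ := Nat.shiftLeft (copyBaseF o) s

/-- `copyIn o s X` for `o < 8`. -/
def copyInF (o s X : ℕ) : Bool :=
  and (Nat.ble (Nat.add (Nat.mod s (nat_lit 27)) (copyWidthF o)) (nat_lit 27))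
    (Nat.beq (Nat.land (copyMaskF o s) X) (copyMaskF o s))

/-- `dblOk`. -/
def dblOkF (M2 K t1 t2 o1 s1 o2 s2 : ℕ) : Bool :=
  and (not (Nat.beq t1 t2)) (and (not (tbF M2 t1)) (and (not (tbF K t1)) (and (not (tbF M2 t2))
    (and (not (tbF K t2)) (and (copyInF o1 s1 (Nat.lor M2 (bitF t1)))
      (copyInF o2 s2 (Nat.lor M2 (bitF t2))))))))

/-- `thrOk`. -/
def thrOkF (M2 K t o s : ℕ) : Bool :=
  and (not (tbF M2 t)) (and (not (tbF K t)) (copyInF o s (Nat.lor M2 (bitF t))))

/-- `chk0`. -/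
def chk0F (M K tok : ℕ) (rest : List ℕ) : Option (ℕ × ℕ × List ℕ) :=
  cond (and (not (tbF M (fldF tok (nat_lit 2) (nat_lit 1024))))
      (and (not (tbF K (fldF tok (nat_lit 2) (nat_lit 1024))))
        (dblOkF (Nat.lor M (bitF (fldF tok (nat_lit 2) (nat_lit 1024)))) K
          (fldF tok (nat_lit 25) (nat_lit 1024)) (fldF tok (nat_lit 48) (nat_lit 1024))
          (fldF tok (nat_lit 12) (nat_lit 8)) (fldF tok (nat_lit 15) (nat_lit 1024))
          (fldF tok (nat_lit 35) (nat_lit 8)) (fldF tok (nat_lit 38) (nat_lit 1024)))))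
    (some (Nat.lor (Nat.lor (bitF (fldF tok (nat_lit 2) (nat_lit 1024)))
      (bitF (fldF tok (nat_lit 25) (nat_lit 1024)))) (bitF (fldF tok (nat_lit 48) (nat_lit 1024))),
      nat_lit 2, rest))
    none

/-- `chk1`. -/
def chk1F (rec : ℕ → ℕ → List ℕ → Option (ℕ × ℕ × List ℕ)) (M K tok : ℕ) (rest : List ℕ) :
    Option (ℕ × ℕ × List ℕ) :=
  cond (and (not (tbF M (fldF tok (nat_lit 2) (nat_lit 1024))))
      (and (not (tbF K (fldF tok (nat_lit 2) (nat_lit 1024))))
        (thrOkF (Nat.lor M (bitF (fldF tok (nat_lit 2) (nat_lit 1024)))) K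
          (fldF tok (nat_lit 25) (nat_lit 1024))
          (fldF tok (nat_lit 12) (nat_lit 8)) (fldF tok (nat_lit 15) (nat_lit 1024)))))
    (match rec (Nat.lor M (bitF (fldF tok (nat_lit 2) (nat_lit 1024))))
        (Nat.lor K (bitF (fldF tok (nat_lit 25) (nat_lit 1024)))) rest with
      | none => none
      | some (zj, nj, rest') =>
        some (Nat.lor (Nat.lor zj (bitF (fldF tok (nat_lit 2) (nat_lit 1024))))
          (bitF (fldF tok (nat_lit 25) (nat_lit 1024))), Nat.succ nj, rest'))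
    none

/-- `chkAlts`. -/
def chkAltsF (rec : ℕ → ℕ → List ℕ → Option (ℕ × ℕ × List ℕ)) (M2 K z0 : ℕ) :
    ℕ → List ℕ → ℕ → ℕ → ℕ → Option (ℕ × ℕ × ℕ × List ℕ)
  | 0, toks, Z, cov, n => some (Z, cov, n, toks)
  | _ + 1, [], _, _, _ => none
  | k + 1, b :: toks, Z, cov, n =>
    match rec M2 (Nat.lor K (bitF b)) toks with
    | none => none
    | some (zb, nb, rest) =>
      chkAltsF rec M2 K z0 k rest (Nat.lor Z zb)
        (Nat.lor (Nat.lor cov (bitF b)) (Nat.xor z0 (Nat.land z0 zb))) (cond (Nat.ble n nb) nb n)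

/-- `chk2`. -/
def chk2F (rec : ℕ → ℕ → List ℕ → Option (ℕ × ℕ × List ℕ)) (M K tok : ℕ) (rest : List ℕ) :
    Option (ℕ × ℕ × List ℕ) :=
  cond (and (not (tbF M (fldF tok (nat_lit 2) (nat_lit 1024))))
      (not (tbF K (fldF tok (nat_lit 2) (nat_lit 1024)))))
    (match rec (Nat.lor M (bitF (fldF tok (nat_lit 2) (nat_lit 1024)))) K rest with
      | none => none
      | some (z0, n0, rest1) =>
        match chkAltsF rec (Nat.lor M (bitF (fldF tok (nat_lit 2) (nat_lit 1024)))) K z0
            (Nat.shiftRight tok (nat_lit 12)) rest1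
            (Nat.lor z0 (bitF (fldF tok (nat_lit 2) (nat_lit 1024)))) (nat_lit 0) n0 with
        | none => none
        | some (Z, cov, n, rest2) =>
          cond (Nat.beq (Nat.land z0 (Nat.lor (Nat.lor
              (Nat.lor M (bitF (fldF tok (nat_lit 2) (nat_lit 1024)))) K) cov)) z0)
            (some (Z, Nat.succ n, rest2)) none)
    none

/-- `chkLem`. -/
def chkLemF (lem : List (ℕ × ℕ × ℕ × ℕ)) (M K tok : ℕ) (rest : List ℕ) :
    Option (ℕ × ℕ × List ℕ) :=
  match lem[Nat.shiftRight tok (nat_lit 2)]? with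
  | none => none
  | some (M', K', Z', n') => cond (and (Nat.beq M' M) (Nat.beq K' K)) (some (Z', n', rest)) none

/-- The proof-tree checker `chk`, in kernel-friendly form. -/
def chkF (lem : List (ℕ × ℕ × ℕ × ℕ)) : ℕ → ℕ → ℕ → List ℕ → Option (ℕ × ℕ × List ℕ)
  | 0, _, _, _ => none
  | _ + 1, _, _, [] => none
  | f + 1, M, K, tok :: rest =>
    cond (Nat.beq (Nat.mod tok (nat_lit 4)) (nat_lit 0)) (chk0F M K tok rest)
      (cond (Nat.beq (Nat.mod tok (nat_lit 4)) (nat_lit 1)) (chk1F (chkF lem f) M K tok rest)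
        (cond (Nat.beq (Nat.mod tok (nat_lit 4)) (nat_lit 2)) (chk2F (chkF lem f) M K tok rest)
          (chkLemF lem M K tok rest)))

/-- `unpack`. -/
def unpackF : ℕ → ℕ → List ℕ → List ℕ
  | 0, _, acc => acc
  | k + 1, x, acc =>
    Nat.mod x (nat_lit 18446744073709551616) :: unpackF k (Nat.shiftRight x (nat_lit 64)) acc

/-- `unpackAll`. -/
def unpackAllF : List ℕ → List ℕ
  | [] => []
  | x :: xs => unpackF 256 x (unpackAllF xs)

/-- `chkOk`. -/
def chkOkF (lem : List (ℕ × ℕ × ℕ × ℕ)) (fuel M K : ℕ) (toks : List ℕ) (Z n : ℕ) : Bool :=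
  match chkF lem fuel M K toks with
  | none => false
  | some (Z', n', _) => and (Nat.beq Z' Z) (Nat.beq n' n)

/-! ### The kernel-friendly checker computes the same function -/




theorem beqF_eq (a b : ℕ) : Nat.beq a b = (a == b) := by
  rw [Bool.eq_iff_iff]; simp

theorem bleF_eq (a b : ℕ) : Nat.ble a b = decide (a ≤ b) := by
  rw [Bool.eq_iff_iff]; simp

theorem tbF_eq (M c : ℕ) : tbF M c = M.testBit c := by
  unfold tbF
  rw [beqF_eq]
  show ((M >>> c) &&& 1 == 1) = M.testBit c
  rw [Nat.and_one_is_mod, Nat.testBit_eq_decide_div_mod_eq, Nat.shiftRight_eq_div_pow]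
  rw [Bool.eq_iff_iff]; simp

theorem fldF_eq (tok sh md : ℕ) : fldF tok sh md = (tok >>> sh) % md := rfl
theorem bitF_eq (c : ℕ) : bitF c = 1 <<< c := rfl

theorem copyBaseF_eq (o : ℕ) (h : o < 8) : copyBaseF o = copyBase o := by
  interval_cases o <;> rfl

theorem copyWidthF_eq (o : ℕ) : copyWidthF o = copyWidth o := by
  unfold copyWidthF copyWidth
  rw [bleF_eq]
  by_cases h : o < 4
  · have h' : o ≤ 3 := by omega
    simp [h, h']
  · have h' : ¬ o ≤ 3 := by omega
    simp [h, h']

theorem copyInF_eq (o s X : ℕ) (h : o < 8) : copyInF o s X = copyIn o s X := by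
  unfold copyInF copyIn copyMaskF copyMask
  rw [copyBaseF_eq o h, copyWidthF_eq, bleF_eq, beqF_eq]
  rfl


theorem lorF_eq (a b : ℕ) : Nat.lor a b = a ||| b := rfl
theorem landF_eq (a b : ℕ) : Nat.land a b = a &&& b := rfl
theorem xorF_eq (a b : ℕ) : Nat.xor a b = a ^^^ b := rfl
theorem shrF_eq (a b : ℕ) : Nat.shiftRight a b = a >>> b := rfl
theorem modF_eq (a b : ℕ) : Nat.mod a b = a % b := rfl

theorem fldF_lt8 (tok sh : ℕ) : fldF tok sh 8 < 8 := Nat.mod_lt _ (by decide)

theorem dblOkF_eq (M2 K t1 t2 o1 s1 o2 s2 : ℕ) (h1 : o1 < 8) (h2 : o2 < 8) :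
    dblOkF M2 K t1 t2 o1 s1 o2 s2 = dblOk M2 K t1 t2 o1 s1 o2 s2 := by
  unfold dblOkF dblOk
  simp only [beqF_eq, tbF_eq, copyInF_eq _ _ _ h1, copyInF_eq _ _ _ h2, Bool.and_assoc]
  rfl

theorem thrOkF_eq (M2 K t o s : ℕ) (h : o < 8) : thrOkF M2 K t o s = thrOk M2 K t o s := by
  unfold thrOkF thrOk
  simp only [tbF_eq, copyInF_eq _ _ _ h, Bool.and_assoc]
  rfl

theorem chk0F_eq (M K tok : ℕ) (rest : List ℕ) : chk0F M K tok rest = chk0 M K tok rest := by
  unfold chk0F chk0
  rw [cond_eq_ite]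
  simp only [tbF_eq, dblOkF_eq _ _ _ _ _ _ _ _ (fldF_lt8 _ _) (fldF_lt8 _ _), Bool.and_assoc]
  rfl


theorem chk1F_eq (rec : ℕ → ℕ → List ℕ → Option (ℕ × ℕ × List ℕ)) (M K tok : ℕ) (rest : List ℕ) :
    chk1F rec M K tok rest = chk1 rec M K tok rest := by
  unfold chk1F chk1
  rw [cond_eq_ite]
  simp only [tbF_eq, thrOkF_eq _ _ _ _ _ (fldF_lt8 _ _), Bool.and_assoc]
  rfl

theorem maxF_eq (n m : ℕ) : cond (Nat.ble n m) m n = max n m := by
  rw [cond_eq_ite, bleF_eq, Nat.max_def]
  simp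

theorem chkAltsF_eq (rec : ℕ → ℕ → List ℕ → Option (ℕ × ℕ × List ℕ)) (M2 K z0 : ℕ) :
    ∀ (k : ℕ) (toks : List ℕ) (Z cov n : ℕ),
      chkAltsF rec M2 K z0 k toks Z cov n = chkAlts rec M2 K z0 k toks Z cov n := by
  intro k
  induction k with
  | zero => intro toks Z cov n; rfl
  | succ k ih =>
    intro toks Z cov n
    cases toks with
    | nil => rfl
    | cons b toks =>
      simp only [chkAltsF, chkAlts]
      cases h : rec M2 (K ||| 1 <<< b) toks with
      | none =>
        have h' : rec M2 (Nat.lor K (bitF b)) toks = none := h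
        rw [h']
      | some r =>
        obtain ⟨zb, nb, rest⟩ := r
        have h' : rec M2 (Nat.lor K (bitF b)) toks = some (zb, nb, rest) := h
        rw [h']
        simp only
        rw [ih, maxF_eq]
        rfl

theorem chk2F_eq (rec : ℕ → ℕ → List ℕ → Option (ℕ × ℕ × List ℕ)) (M K tok : ℕ) (rest : List ℕ) :
    chk2F rec M K tok rest = chk2 rec M K tok rest := by
  unfold chk2F chk2
  rw [cond_eq_ite]
  simp only [tbF_eq, chkAltsF_eq, cond_eq_ite, beqF_eq]
  rfl

theorem chkLemF_eq (lem : List (ℕ × ℕ × ℕ × ℕ)) (M K tok : ℕ) (rest : List ℕ) :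
    chkLemF lem M K tok rest = chkLem lem M K tok rest := by
  unfold chkLemF chkLem
  simp only [cond_eq_ite, beqF_eq]
  rfl

theorem chkF_eq (lem : List (ℕ × ℕ × ℕ × ℕ)) :
    ∀ (f M K : ℕ) (toks : List ℕ), chkF lem f M K toks = chk lem f M K toks := by
  intro f
  induction f with
  | zero => intro M K toks; rfl
  | succ f ih =>
    intro M K toks
    cases toks with
    | nil => rfl
    | cons tok rest =>
      have hrec : chkF lem f = chk lem f := by
        funext M K toks
        exact ih M K toks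
      simp only [chkF, chk]
      rw [hrec, chk0F_eq, chk1F_eq, chk2F_eq, chkLemF_eq]
      have hm : Nat.mod tok 4 = tok % 4 := rfl
      rw [hm]
      generalize tok % 4 = k
      rcases k with _ | _ | _ | k <;> rfl

theorem unpackF_eq : ∀ (k x : ℕ) (acc : List ℕ), unpackF k x acc = unpack k x acc := by
  intro k
  induction k with
  | zero => intro x acc; rfl
  | succ k ih =>
    intro x acc
    simp only [unpackF, unpack]
    rw [ih]
    rfl

theorem unpackAllF_eq : ∀ (l : List ℕ), unpackAllF l = unpackAll l := by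
  intro l
  induction l with
  | nil => rfl
  | cons x xs ih =>
    simp only [unpackAllF, unpackAll]
    rw [ih, unpackF_eq]

theorem chkOkF_eq (lem : List (ℕ × ℕ × ℕ × ℕ)) (fuel M K : ℕ) (toks : List ℕ) (Z n : ℕ) :
    chkOkF lem fuel M K toks Z n = chkOk lem fuel M K toks Z n := by
  unfold chkOkF chkOk
  rw [chkF_eq]
  simp only [beqF_eq]
  rfl

/-- One run of the kernel-friendly checker: the drop-in replacement of `wonE_of_chkOk`. -/
theorem wonE_of_chkOkF {lem : List (ℕ × ℕ × ℕ × ℕ)} (hlem : AllWon lem) (fuel : ℕ)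
    {e : ℕ × ℕ × ℕ × ℕ} {toks : List ℕ}
    (h : chkOkF lem fuel e.1 e.2.1 (unpackAllF toks) e.2.2.1 e.2.2.2 = true) : WonE e := by
  rw [chkOkF_eq, unpackAllF_eq] at h
  exact wonE_of_chkOk hlem fuel h


end Vale.Agent.Lib.P062
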