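import Vale.Agent.Lib.P062.MakerDefs

/-!
# From winning positions to winning strategies (P062)

`MWin B W N ∅ ∅` (the inductive, position-based notion) yields `MakerWinsIn N B W` (a Maker
strategy beating every legal Breaker strategy), on every board `B` that is not exhausted by finitely
many cells.
-/

namespace Vale.Agent.Lib.P062

variable {C : Type}

theorem length_replies (s : List C → C) (hs : List C) : (replies s hs).length = hs.length := by
  induction hs with
  | nil => rfl
  | cons c hs ih => simp [replies, ih]

theorem length_makerPlay (m s : List C → C) (k : ℕ) : (makerPlay m s k).length = k := by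
  induction k with
  | zero => rfl
  | succ k ih => simp [makerPlay, ih]

/-- Maker's earlier moves, reconstructed from Breaker's replies, for the strategy that plays
`mv hs bs` when Maker's moves so far are `hs` and Breaker's replies so far are `bs`. -/
def histOf (mv : List C → List C → C) : List C → List C
  | [] => []
  | _ :: bs => mv (histOf mv bs) bs :: histOf mv bs

/-- The Maker strategy that plays `mv hs bs` when Maker's moves so far are `hs` and Breaker's
replies so far are `bs` (both newest first). -/
def stratOf (mv : List C → List C → C) (bs : List C) : C := mv (histOf mv bs) bs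

theorem stratOf_replies (mv : List C → List C → C) (s : List C → C) (k : ℕ)
    (ih : histOf mv (replies s (makerPlay (stratOf mv) s k)) = makerPlay (stratOf mv) s k) :
    stratOf mv (replies s (makerPlay (stratOf mv) s k)) =
      mv (makerPlay (stratOf mv) s k) (replies s (makerPlay (stratOf mv) s k)) := by
  show mv (histOf mv (replies s (makerPlay (stratOf mv) s k)))
    (replies s (makerPlay (stratOf mv) s k)) = _
  rw [ih]

theorem histOf_replies (mv : List C → List C → C) (s : List C → C) (k : ℕ) :
    histOf mv (replies s (makerPlay (stratOf mv) s k)) = makerPlay (stratOf mv) s k := by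
  induction k with
  | zero => rfl
  | succ k ih =>
    have h1 : makerPlay (stratOf mv) s (k + 1) =
        stratOf mv (replies s (makerPlay (stratOf mv) s k)) :: makerPlay (stratOf mv) s k := rfl
    have h2 : ∀ c hs, replies s (c :: hs) = s (c :: hs) :: replies s hs := fun _ _ => rfl
    have h3 : ∀ b bs, histOf mv (b :: bs) = mv (histOf mv bs) bs :: histOf mv bs :=
      fun _ _ => rfl
    rw [h1, h2, h3, ih, stratOf_replies mv s k ih]

/-- The next move of `stratOf mv` is `mv` applied to the current position. -/
theorem makerPlay_succ (mv : List C → List C → C) (s : List C → C) (k : ℕ) :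
    makerPlay (stratOf mv) s (k + 1) =
      mv (makerPlay (stratOf mv) s k) (replies s (makerPlay (stratOf mv) s k)) ::
        makerPlay (stratOf mv) s k := by
  have h1 : makerPlay (stratOf mv) s (k + 1) =
      stratOf mv (replies s (makerPlay (stratOf mv) s k)) :: makerPlay (stratOf mv) s k := rfl
  rw [h1, stratOf_replies mv s k (histOf_replies mv s k)]

variable [DecidableEq C] {B : Set C} {W : Set (Finset C)}

theorem MWin.exists_move {n : ℕ} {M K : Finset C} (h : MWin B W (n + 1) M K) :
    ∃ c, c ∈ B ∧ c ∉ M ∧ c ∉ K ∧ ((∃ A ∈ W, A ⊆ insert c M) ∨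
      ∀ d ∈ B, d ∉ insert c M → d ∉ K → MWin B W n (insert c M) (insert d K)) := by
  cases h with
  | win c A hcB hcM hcK hA hAM => exact ⟨c, hcB, hcM, hcK, Or.inl ⟨A, hA, hAM⟩⟩
  | step c hcB hcM hcK h => exact ⟨c, hcB, hcM, hcK, Or.inr h⟩

theorem MWin.not_zero {M K : Finset C} : ¬ MWin B W 0 M K := by
  intro h
  cases h

/-- On a board that is not exhausted by finitely many cells, a legal Breaker strategy always
answers a legal Maker play with an unclaimed cell of the board. -/
theorem legal_reply (hB : ∀ F : Finset C, ∃ d ∈ B, d ∉ F) {s : List C → C}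
    (hs : LegalStrategy B s) {c : C} {hs' : List C} (hl : LegalPlay B s (c :: hs')) :
    s (c :: hs') ∈ B ∧ s (c :: hs') ∉ c :: hs' ∧ s (c :: hs') ∉ replies s hs' := by
  rcases hs c hs' hl with h | h
  · exact h
  · exfalso
    obtain ⟨d, hdB, hd⟩ := hB ((c :: hs').toFinset ∪ (replies s hs').toFinset)
    apply hd
    rw [Finset.mem_union, List.mem_toFinset, List.mem_toFinset]
    exact h d hdB

/-- The invariant of the play of a position-following strategy: if after `k0` Maker moves the play
is legal and the position is a Maker win within `T - k0` moves, and from then on Maker plays the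
moves `pick` selected from the winning positions, then Maker owns a winning set after at most `T`
moves. -/
theorem play_invariant (hB : ∀ F : Finset C, ∃ d ∈ B, d ∉ F)
    (pick : ℕ → Finset C → Finset C → C)
    (hpick : ∀ n M K, MWin B W (n + 1) M K → pick n M K ∈ B ∧ pick n M K ∉ M ∧ pick n M K ∉ K ∧
      ((∃ A ∈ W, A ⊆ insert (pick n M K) M) ∨
        ∀ d ∈ B, d ∉ insert (pick n M K) M → d ∉ K →
          MWin B W n (insert (pick n M K) M) (insert d K)))
    (mv : List C → List C → C) (T k0 : ℕ)
    (hmv : ∀ hs bs, k0 ≤ hs.length → mv hs bs = pick (T - 1 - hs.length) hs.toFinset bs.toFinset)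
    {s : List C → C} (hs : LegalStrategy B s)
    (hl0 : LegalPlay B s (makerPlay (stratOf mv) s k0))
    (hw0 : MWin B W (T - k0) (makerPlay (stratOf mv) s k0).toFinset
      (replies s (makerPlay (stratOf mv) s k0)).toFinset) :
    ∃ k, k ≤ T ∧ LegalPlay B s (makerPlay (stratOf mv) s k) ∧
      ∃ A ∈ W, A ⊆ (makerPlay (stratOf mv) s k).toFinset := by
  have hk0T : k0 ≤ T := by
    by_contra hlt
    have h0 : T - k0 = 0 := by omega
    rw [h0] at hw0
    exact MWin.not_zero hw0
  have key : ∀ i, k0 + i ≤ T →
      (∃ k, k ≤ T ∧ LegalPlay B s (makerPlay (stratOf mv) s k) ∧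
        ∃ A ∈ W, A ⊆ (makerPlay (stratOf mv) s k).toFinset) ∨
      (LegalPlay B s (makerPlay (stratOf mv) s (k0 + i)) ∧
        MWin B W (T - (k0 + i)) (makerPlay (stratOf mv) s (k0 + i)).toFinset
          (replies s (makerPlay (stratOf mv) s (k0 + i))).toFinset) := by
    intro i
    induction i with
    | zero =>
      intro _
      exact Or.inr ⟨hl0, hw0⟩
    | succ i ih =>
      intro hi
      rcases ih (by omega) with hwon | ⟨hl, hw⟩
      · exact Or.inl hwon
      · have hlen : (makerPlay (stratOf mv) s (k0 + i)).length = k0 + i :=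
          length_makerPlay _ _ _
        have hnext : makerPlay (stratOf mv) s (k0 + (i + 1)) =
            mv (makerPlay (stratOf mv) s (k0 + i))
              (replies s (makerPlay (stratOf mv) s (k0 + i))) ::
              makerPlay (stratOf mv) s (k0 + i) := makerPlay_succ mv s (k0 + i)
        obtain ⟨P, hP⟩ : ∃ P, P = makerPlay (stratOf mv) s (k0 + i) := ⟨_, rfl⟩
        rw [← hP] at hl hw hlen hnext
        have hT : T - (k0 + i) = (T - 1 - (k0 + i)) + 1 := by omega
        rw [hT] at hw
        have hmvP : mv P (replies s P) =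
            pick (T - 1 - (k0 + i)) P.toFinset (replies s P).toFinset := by
          rw [hmv P (replies s P) (by omega), hlen]
        rw [hmvP] at hnext
        obtain ⟨hcB, hcM, hcK, hcase⟩ := hpick _ _ _ hw
        obtain ⟨c, hc⟩ :
            ∃ c, c = pick (T - 1 - (k0 + i)) P.toFinset (replies s P).toFinset := ⟨_, rfl⟩
        rw [← hc] at hnext hcB hcM hcK hcase
        have hlegal : LegalPlay B s (c :: P) :=
          ⟨hl, hcB, fun h => hcM (List.mem_toFinset.mpr h),
            fun h => hcK (List.mem_toFinset.mpr h)⟩
        rcases hcase with ⟨A, hA, hAM⟩ | hstep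
        · refine Or.inl ⟨k0 + (i + 1), hi, ?_, A, hA, ?_⟩
          · rw [hnext]
            exact hlegal
          · rw [hnext, List.toFinset_cons]
            exact hAM
        · obtain ⟨hdB, hdP, hdR⟩ := legal_reply hB hs hlegal
          refine Or.inr ⟨?_, ?_⟩
          · rw [hnext]
            exact hlegal
          · rw [hnext]
            have hrep : replies s (c :: P) = s (c :: P) :: replies s P := rfl
            rw [hrep, List.toFinset_cons, List.toFinset_cons]
            have hT' : T - (k0 + (i + 1)) = T - 1 - (k0 + i) := by omega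
            rw [hT']
            refine hstep _ hdB ?_ ?_
            · rw [← List.toFinset_cons, List.mem_toFinset]
              exact hdP
            · rw [List.mem_toFinset]
              exact hdR
  rcases key (T - k0) (by omega) with hwon | ⟨_, hw⟩
  · exact hwon
  · have h0 : T - (k0 + (T - k0)) = 0 := by omega
    rw [h0] at hw
    exact absurd hw MWin.not_zero

/-- A choice of Maker's move in every winning position. -/
theorem exists_pick (hB : ∀ F : Finset C, ∃ d ∈ B, d ∉ F) :
    ∃ pick : ℕ → Finset C → Finset C → C, ∀ n M K, MWin B W (n + 1) M K →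
      pick n M K ∈ B ∧ pick n M K ∉ M ∧ pick n M K ∉ K ∧
      ((∃ A ∈ W, A ⊆ insert (pick n M K) M) ∨
        ∀ d ∈ B, d ∉ insert (pick n M K) M → d ∉ K →
          MWin B W n (insert (pick n M K) M) (insert d K)) := by
  have hex : ∀ n M K, ∃ c : C, MWin B W (n + 1) M K →
      c ∈ B ∧ c ∉ M ∧ c ∉ K ∧ ((∃ A ∈ W, A ⊆ insert c M) ∨
        ∀ d ∈ B, d ∉ insert c M → d ∉ K → MWin B W n (insert c M) (insert d K)) := by
    intro n M K
    by_cases h : MWin B W (n + 1) M K
    · obtain ⟨c, hc⟩ := h.exists_move
      exact ⟨c, fun _ => hc⟩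
    · obtain ⟨d, -, -⟩ := hB ∅
      exact ⟨d, fun h' => absurd h' h⟩
  choose pick hpick using hex
  exact ⟨pick, hpick⟩

/-- **Bridge.** On a board not exhausted by finitely many cells, a Maker win from the empty
position within `N` moves (in the inductive, position-based sense) gives a Maker strategy winning
within `N` moves against every legal Breaker strategy. -/
theorem makerWinsIn_of_MWin (hB : ∀ F : Finset C, ∃ d ∈ B, d ∉ F) {N : ℕ}
    (h : MWin B W N ∅ ∅) : MakerWinsIn N B W := by
  obtain ⟨pick, hpick⟩ := exists_pick (W := W) hB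
  obtain ⟨mv, hmv⟩ : ∃ mv : List C → List C → C,
      mv = fun hs bs => pick (N - 1 - hs.length) hs.toFinset bs.toFinset := ⟨_, rfl⟩
  refine ⟨stratOf mv, fun s hs => ?_⟩
  refine play_invariant hB pick hpick mv N 0 (fun hs' bs _ => by rw [hmv]) hs ?_ ?_
  · exact trivial
  · exact h

/-- **Bridge with a fixed opening.** If after Maker's opening `c0` and every reply `d` of Breaker
satisfying `good` the position is a Maker win within `N` moves, then Maker has a strategy opening
with `c0` that wins within `N + 1` moves against every legal Breaker strategy whose first reply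
satisfies `good`. -/
theorem makerWinsAfter_of_MWin (hB : ∀ F : Finset C, ∃ d ∈ B, d ∉ F) {N : ℕ} {c0 : C}
    (hc0 : c0 ∈ B) (good : C → Prop)
    (h : ∀ d ∈ B, d ≠ c0 → good d → MWin B W N {c0} {d}) :
    MakerWinsAfter (N + 1) B W c0 good := by
  obtain ⟨pick, hpick⟩ := exists_pick (W := W) hB
  obtain ⟨mv, hmv⟩ : ∃ mv : List C → List C → C,
      mv = fun hs bs => if hs = [] then c0
        else pick (N + 1 - 1 - hs.length) hs.toFinset bs.toFinset := ⟨_, rfl⟩
  have hmv0 : mv [] [] = c0 := by
    rw [hmv]
    simp
  refine ⟨stratOf mv, hmv0, fun s hs hgood => ?_⟩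
  have h1 : makerPlay (stratOf mv) s 1 = [c0] := by
    rw [makerPlay_succ]
    show [mv [] []] = [c0]
    rw [hmv0]
  have hl1 : LegalPlay B s [c0] := ⟨trivial, hc0, by simp, by simp [replies]⟩
  obtain ⟨hdB, hdP, hdR⟩ := legal_reply hB hs hl1
  refine play_invariant hB pick hpick mv (N + 1) 1 ?_ hs ?_ ?_
  · intro hs' bs hlen
    rw [hmv]
    have hne : hs' ≠ [] := by
      intro h0
      rw [h0] at hlen
      simp at hlen
    simp [hne]
  · rw [h1]
    exact hl1
  · rw [h1]
    have hrep : replies s [c0] = [s [c0]] := rfl
    rw [hrep]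
    have hN : N + 1 - 1 = N := rfl
    rw [hN]
    have e1 : ([c0] : List C).toFinset = {c0} := by simp
    have e2 : ([s [c0]] : List C).toFinset = {s [c0]} := by simp
    rw [e1, e2]
    refine h _ hdB ?_ hgood
    intro heq
    apply hdP
    rw [heq]
    simp

/-- The two notions of winning exclude each other: if Maker wins then Breaker does not. -/
theorem not_breakerWins_of_makerWinsIn {N : ℕ} (h : MakerWinsIn N B W) : ¬ BreakerWins B W := by
  rintro ⟨s, hs, hno⟩
  obtain ⟨m, hm⟩ := h
  obtain ⟨k, -, hl, A, hA, hsub⟩ := hm s hs
  exact hno _ hl A hA hsub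

/-- A win with a fixed opening against all replies is a win. -/
theorem makerWinsIn_of_makerWinsAfter {N : ℕ} {c0 : C} (h : MakerWinsAfter N B W c0 fun _ => True) :
    MakerWinsIn N B W := by
  obtain ⟨m, -, hm⟩ := h
  exact ⟨m, fun s hs => hm s hs trivial⟩

end Vale.Agent.Lib.P062
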