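import Vale.Agent.Lib.P062.Defs

/-!
# The Maker side of the achievement game (P062)

The game is the one of `Defs.lean`: a Breaker strategy `s` maps the list of Maker's moves so far
(newest first) to Breaker's reply, `replies s hs` are Breaker's cells after Maker's moves `hs`,
`LegalPlay B s hs` says that Maker's moves `hs` are legal against `s`, and `LegalStrategy B s` says
that `s` always answers with an unclaimed cell of the board.
-/

namespace Vale.Agent.Lib.P062

/-- Maker's first `k` moves (newest first) when Maker follows the strategy `m` and Breaker answers
with the strategy `s`. A Maker strategy `m` maps the list of Breaker's replies so far (newest first)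
to Maker's next move; Maker's opening move is `m []`. -/
def makerPlay {C : Type} (m : List C → C) (s : List C → C) : ℕ → List C
  | 0 => []
  | k + 1 => m (replies s (makerPlay m s k)) :: makerPlay m s k

/-- `MakerWinsIn N B W`: in the Maker-Breaker game on the board `B` with winning sets `W`, Maker
moving first and the players alternately claiming one unclaimed cell, Maker has a strategy `m` that
wins within `N` Maker moves against every legal Breaker strategy `s`: for some `k ≤ N` the first `k`
moves of `m` against `s` are legal (cells of `B` unclaimed by either player) and contain all cells of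
some winning set. -/
def MakerWinsIn {C : Type} [DecidableEq C] (N : ℕ) (B : Set C) (W : Set (Finset C)) : Prop :=
  ∃ m : List C → C, ∀ s : List C → C, LegalStrategy B s →
    ∃ k, k ≤ N ∧ LegalPlay B s (makerPlay m s k) ∧ ∃ A ∈ W, A ⊆ (makerPlay m s k).toFinset

/-- `MakerWinsAfter N B W c0 good`: Maker has a strategy `m` that opens with the cell `c0` and wins
within `N` Maker moves against every legal Breaker strategy `s` whose first reply `s [c0]` satisfies
`good`. -/
def MakerWinsAfter {C : Type} [DecidableEq C] (N : ℕ) (B : Set C) (W : Set (Finset C)) (c0 : C)
    (good : C → Prop) : Prop :=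
  ∃ m : List C → C, m [] = c0 ∧ ∀ s : List C → C, LegalStrategy B s → good (s [c0]) →
    ∃ k, k ≤ N ∧ LegalPlay B s (makerPlay m s k) ∧ ∃ A ∈ W, A ⊆ (makerPlay m s k).toFinset

/-- `MWin B W n M K`: in the position where Maker owns the cells `M`, Breaker owns the cells `K` and
Maker is to move, Maker can complete a winning set within `n` further Maker moves whatever Breaker
replies. Either Maker claims an unclaimed cell `c` of `B` completing a winning set (`win`), or
Maker claims an unclaimed cell `c` of `B` such that after every reply `d` of Breaker (an unclaimed
cell of `B`) Maker wins within `n - 1` further moves (`step`). -/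
inductive MWin {C : Type} [DecidableEq C] (B : Set C) (W : Set (Finset C)) :
    ℕ → Finset C → Finset C → Prop
  | win {n : ℕ} {M K : Finset C} (c : C) (A : Finset C) (hcB : c ∈ B) (hcM : c ∉ M) (hcK : c ∉ K)
      (hA : A ∈ W) (hAM : A ⊆ insert c M) : MWin B W (n + 1) M K
  | step {n : ℕ} {M K : Finset C} (c : C) (hcB : c ∈ B) (hcM : c ∉ M) (hcK : c ∉ K)
      (h : ∀ d ∈ B, d ∉ insert c M → d ∉ K → MWin B W n (insert c M) (insert d K)) :
      MWin B W (n + 1) M K

end Vale.Agent.Lib.P062
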