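import Vale.Agent.Lib.P062.MakerBridge

/-!
# Relevance zones and symmetries for Maker wins (P062)

* `ZoneWin B W n M K Z`: Maker wins within `n` moves whatever Breaker owns outside the zone `Z`.
  The rules `ZoneWin.win` and `ZoneWin.step` are the soundness of relevance-zone proof trees: after
  a Maker move it suffices to treat the Breaker replies inside the zone of the win that Maker has
  when Breaker does not reply inside that zone.
* `MWin.image_equiv`: winning positions are preserved by symmetries of the game; `MWin.gridSym`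
  is the case of the Snaky game under the eight signed permutations and the translations.
-/

namespace Vale.Agent.Lib.P062

section general

variable {C : Type} [DecidableEq C] {B : Set C} {W : Set (Finset C)}

/-- More moves never hurt Maker. -/
theorem MWin.mono_n {n n' : ℕ} {M K : Finset C} (h : MWin B W n M K) (hn : n ≤ n') :
    MWin B W n' M K := by
  induction h generalizing n' with
  | win c A hcB hcM hcK hA hAM =>
    obtain ⟨m, rfl⟩ : ∃ m, n' = m + 1 := ⟨n' - 1, by omega⟩
    exact MWin.win c A hcB hcM hcK hA hAM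
  | step c hcB hcM hcK h ih =>
    obtain ⟨m, rfl⟩ : ∃ m, n' = m + 1 := ⟨n' - 1, by omega⟩
    exact MWin.step c hcB hcM hcK (fun d hd hdM hdK => ih d hd hdM hdK (by omega))

/-- `ZoneWin B W n M K Z`: Maker (owning `M`, to move) wins within `n` moves against every set `K'`
of Breaker cells whose part inside the zone `Z` is contained in `K`. -/
def ZoneWin (B : Set C) (W : Set (Finset C)) (n : ℕ) (M K Z : Finset C) : Prop :=
  ∀ K' : Finset C, K' ∩ Z ⊆ K → MWin B W n M K'

theorem ZoneWin.toMWin {n : ℕ} {M K Z : Finset C} (h : ZoneWin B W n M K Z) : MWin B W n M K :=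
  h K Finset.inter_subset_left

/-- A zone win gives a win against every Breaker set whose part inside the zone lies in `K`. -/
theorem ZoneWin.apply {n : ℕ} {M K Z : Finset C} (h : ZoneWin B W n M K Z) (K' : Finset C)
    (hK' : ∀ x ∈ K', x ∈ Z → x ∈ K) : MWin B W n M K' := by
  refine h K' ?_
  intro x hx
  rw [Finset.mem_inter] at hx
  exact hK' x hx.1 hx.2

/-- Zone wins persist with more moves, fewer Breaker cells and a larger zone. -/
theorem ZoneWin.mono {n n' : ℕ} {M K K2 Z Z2 : Finset C} (h : ZoneWin B W n M K Z) (hn : n ≤ n')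
    (hK : K2 ⊆ K) (hZ : Z ⊆ Z2) : ZoneWin B W n' M K2 Z2 := by
  intro K' hK'
  refine (h.apply K' ?_).mono_n hn
  intro x hx hxZ
  exact hK (hK' (Finset.mem_inter.mpr ⟨hx, hZ hxZ⟩))

/-- Zone rule for an immediately winning move `c`: only `c` has to lie in the zone. -/
theorem ZoneWin.win {n : ℕ} {M K Z : Finset C} (c : C) (A : Finset C) (hcB : c ∈ B) (hcM : c ∉ M)
    (hcK : c ∉ K) (hcZ : c ∈ Z) (hA : A ∈ W) (hAM : A ⊆ insert c M) :
    ZoneWin B W (n + 1) M K Z := by
  intro K' hK'
  refine MWin.win c A hcB hcM ?_ hA hAM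
  intro hcK'
  exact hcK (hK' (Finset.mem_inter.mpr ⟨hcK', hcZ⟩))

/-- Zone rule for a Maker move `c`: if Maker wins with zone `Z' ⊆ Z` when Breaker does not reply
inside `Z'` (`hpass`), then only the replies `d ∈ Z'` need their own wins. -/
theorem ZoneWin.step {n : ℕ} {M K Z Z' : Finset C} (c : C) (hcB : c ∈ B) (hcM : c ∉ M)
    (hcK : c ∉ K) (hcZ : c ∈ Z) (hZ' : Z' ⊆ Z) (hpass : ZoneWin B W n (insert c M) K Z')
    (h : ∀ d ∈ Z', d ∈ B → d ∉ insert c M → d ∉ K →
      ZoneWin B W n (insert c M) (insert d K) Z) :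
    ZoneWin B W (n + 1) M K Z := by
  intro K' hK'
  refine MWin.step c hcB hcM (fun hcK' => hcK (hK' (Finset.mem_inter.mpr ⟨hcK', hcZ⟩))) ?_
  intro d hdB hdM _
  by_cases hdZ' : d ∈ Z'
  · by_cases hdK : d ∈ K
    · refine hpass.apply (insert d K') ?_
      intro x hx hxZ'
      rcases Finset.mem_insert.mp hx with rfl | hxK'
      · exact hdK
      · exact hK' (Finset.mem_inter.mpr ⟨hxK', hZ' hxZ'⟩)
    · refine (h d hdZ' hdB hdM hdK).apply (insert d K') ?_
      intro x hx hxZ
      rcases Finset.mem_insert.mp hx with rfl | hxK'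
      · exact Finset.mem_insert_self _ _
      · exact Finset.mem_insert_of_mem (hK' (Finset.mem_inter.mpr ⟨hxK', hxZ⟩))
  · refine hpass.apply (insert d K') ?_
    intro x hx hxZ'
    rcases Finset.mem_insert.mp hx with rfl | hxK'
    · exact absurd hxZ' hdZ'
    · exact hK' (Finset.mem_inter.mpr ⟨hxK', hZ' hxZ'⟩)

/-- Zone rule for a Maker move `c` with covering children (the rule of the proof-tree checker):
`hpass` is Maker's win with zone `Z0 ⊆ Z` when Breaker does not reply inside `Z0`; every reply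
`d ∈ Z0` is covered by a child, a zone win against an extra Breaker cell `b` with zone `Zb ⊆ Z`,
such that `d = b` or `d ∉ Zb`. -/
theorem ZoneWin.step_cover {n : ℕ} {M K Z Z0 : Finset C} (c : C) (hcB : c ∈ B) (hcM : c ∉ M)
    (hcK : c ∉ K) (hcZ : c ∈ Z) (hZ0 : Z0 ⊆ Z) (hpass : ZoneWin B W n (insert c M) K Z0)
    (h : ∀ d ∈ Z0, d ∈ B → d ∉ insert c M → d ∉ K →
      ∃ b Zb, ZoneWin B W n (insert c M) (insert b K) Zb ∧ Zb ⊆ Z ∧ (d = b ∨ d ∉ Zb)) :
    ZoneWin B W (n + 1) M K Z := by
  intro K' hK'
  refine MWin.step c hcB hcM (fun hcK' => hcK (hK' (Finset.mem_inter.mpr ⟨hcK', hcZ⟩))) ?_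
  intro d hdB hdM _
  by_cases hdZ0 : d ∈ Z0
  · by_cases hdK : d ∈ K
    · refine hpass.apply (insert d K') ?_
      intro x hx hxZ0
      rcases Finset.mem_insert.mp hx with rfl | hxK'
      · exact hdK
      · exact hK' (Finset.mem_inter.mpr ⟨hxK', hZ0 hxZ0⟩)
    · obtain ⟨b, Zb, hb, hZb, hdb⟩ := h d hdZ0 hdB hdM hdK
      refine hb.apply (insert d K') ?_
      intro x hx hxZb
      rcases Finset.mem_insert.mp hx with rfl | hxK'
      · rcases hdb with rfl | hnot
        · exact Finset.mem_insert_self _ _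
        · exact absurd hxZb hnot
      · exact Finset.mem_insert_of_mem (hK' (Finset.mem_inter.mpr ⟨hxK', hZb hxZb⟩))
  · refine hpass.apply (insert d K') ?_
    intro x hx hxZ0
    rcases Finset.mem_insert.mp hx with rfl | hxK'
    · exact absurd hxZ0 hdZ0
    · exact hK' (Finset.mem_inter.mpr ⟨hxK', hZ0 hxZ0⟩)

/-- Zone rule for a threat: Maker's move `c` threatens to complete the winning set `A` at the
cell `t`, so Breaker has to answer `t`, and Maker wins the resulting position with a zone
`Zj ⊆ Z`. -/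
theorem ZoneWin.threat {n : ℕ} {M K Z Zj : Finset C} (c t : C) (A : Finset C) (hcB : c ∈ B)
    (hcM : c ∉ M) (hcK : c ∉ K) (hcZ : c ∈ Z) (htB : t ∈ B) (htM : t ∉ insert c M) (htK : t ∉ K)
    (htZ : t ∈ Z) (hA : A ∈ W) (hAM : A ⊆ insert t (insert c M))
    (hchild : ZoneWin B W (n + 1) (insert c M) (insert t K) Zj) (hZj : Zj ⊆ Z) :
    ZoneWin B W (n + 2) M K Z := by
  refine ZoneWin.step (Z' := {t}) c hcB hcM hcK hcZ ?_ ?_ ?_
  · intro x hx
    rw [Finset.mem_singleton] at hx
    rw [hx]
    exact htZ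
  · exact ZoneWin.win t A htB htM htK (Finset.mem_singleton_self t) hA hAM
  · intro d hd _ _ _
    rw [Finset.mem_singleton] at hd
    rw [hd]
    exact hchild.mono le_rfl (Finset.Subset.refl _) hZj

/-- Zone rule for a double threat: after Maker's move `c` the two different cells `t1`, `t2`
each complete a winning set, and Breaker can take only one of them. -/
theorem ZoneWin.double_threat {n : ℕ} {M K Z : Finset C} (c t1 t2 : C) (A1 A2 : Finset C)
    (hcB : c ∈ B) (hcM : c ∉ M) (hcK : c ∉ K) (hcZ : c ∈ Z) (h12 : t1 ≠ t2)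
    (ht1B : t1 ∈ B) (ht1M : t1 ∉ insert c M) (ht1K : t1 ∉ K) (ht1Z : t1 ∈ Z)
    (ht2B : t2 ∈ B) (ht2M : t2 ∉ insert c M) (ht2K : t2 ∉ K) (ht2Z : t2 ∈ Z)
    (hA1 : A1 ∈ W) (hA1M : A1 ⊆ insert t1 (insert c M))
    (hA2 : A2 ∈ W) (hA2M : A2 ⊆ insert t2 (insert c M)) :
    ZoneWin B W (n + 2) M K Z := by
  refine ZoneWin.threat (Zj := Z) c t1 A1 hcB hcM hcK hcZ ht1B ht1M ht1K ht1Z hA1 hA1M ?_
    (Finset.Subset.refl _)
  refine ZoneWin.win t2 A2 ht2B ht2M ?_ ht2Z hA2 hA2M
  intro hmem
  rcases Finset.mem_insert.mp hmem with h | h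
  · exact h12 h.symm
  · exact ht2K h

/-- First replies: if Maker, owning `M`, wins with zone `Z` when Breaker owns nothing inside `Z`,
then Maker wins after every single Breaker cell outside `Z`. -/
theorem ZoneWin.single_outside {n : ℕ} {M Z : Finset C} (h : ZoneWin B W n M ∅ Z) {d : C}
    (hd : d ∉ Z) : MWin B W n M {d} := by
  refine h.apply {d} ?_
  intro x hx hxZ
  rw [Finset.mem_singleton] at hx
  rw [hx] at hxZ
  exact absurd hxZ hd

/-- If Maker wins within `n` moves after the opening `c0` and every reply, then Maker wins within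
`n + 1` moves from the empty position. -/
theorem MWin.of_opening {n : ℕ} {c0 : C} (hc0 : c0 ∈ B)
    (h : ∀ d ∈ B, d ≠ c0 → MWin B W n {c0} {d}) : MWin B W (n + 1) ∅ ∅ := by
  refine MWin.step c0 hc0 (Finset.notMem_empty _) (Finset.notMem_empty _) ?_
  intro d hdB hd _
  have hne : d ≠ c0 := by
    intro heq
    apply hd
    rw [heq]
    exact Finset.mem_insert_self _ _
  exact h d hdB hne

/-- Winning positions are preserved by every symmetry `g` of the board that maps winning sets to
winning sets. -/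
theorem MWin.image_equiv (g : C ≃ C) (hB : ∀ c, c ∈ B ↔ g c ∈ B)
    (hW : ∀ A ∈ W, A.image g ∈ W) {n : ℕ} {M K : Finset C} (h : MWin B W n M K) :
    MWin B W n (M.image g) (K.image g) := by
  induction h with
  | @win n M K c A hcB hcM hcK hA hAM =>
    refine MWin.win (g c) (A.image g) ((hB c).mp hcB) ?_ ?_ (hW A hA) ?_
    · rw [Finset.mem_image]
      rintro ⟨x, hx, hxc⟩
      exact hcM (g.injective hxc ▸ hx)
    · rw [Finset.mem_image]
      rintro ⟨x, hx, hxc⟩
      exact hcK (g.injective hxc ▸ hx)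
    · rw [← Finset.image_insert]
      exact Finset.image_subset_image hAM
  | @step n M K c hcB hcM hcK h ih =>
    refine MWin.step (g c) ((hB c).mp hcB) ?_ ?_ ?_
    · rw [Finset.mem_image]
      rintro ⟨x, hx, hxc⟩
      exact hcM (g.injective hxc ▸ hx)
    · rw [Finset.mem_image]
      rintro ⟨x, hx, hxc⟩
      exact hcK (g.injective hxc ▸ hx)
    · intro d' hdB hdM hdK
      have hd' : g (g.symm d') = d' := g.apply_symm_apply d'
      have h1 : g.symm d' ∈ B := (hB _).mpr (by rw [hd']; exact hdB)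
      have h2 : g.symm d' ∉ insert c M := by
        intro hmem
        apply hdM
        rw [← Finset.image_insert, ← hd']
        exact Finset.mem_image_of_mem g hmem
      have h3 : g.symm d' ∉ K := by
        intro hmem
        apply hdK
        rw [← hd']
        exact Finset.mem_image_of_mem g hmem
      have h4 := ih (g.symm d') h1 h2 h3
      rw [Finset.image_insert, Finset.image_insert, hd'] at h4
      exact h4

end general

/-! ### The grid and the Snaky game -/

/-- The plane is not exhausted by finitely many cells. -/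
theorem univ_not_exhausted (F : Finset (ℤ × ℤ)) : ∃ d ∈ (Set.univ : Set (ℤ × ℤ)), d ∉ F := by
  obtain ⟨d, hd⟩ := Infinite.exists_notMem_finset F
  exact ⟨d, Set.mem_univ d, hd⟩

/-- The symmetry `p ↦ t + R p` of the grid, `R` the signed permutation matrix with signs `a`, `b`
that swaps the two coordinates when `sw` is true. -/
def gridSym (a b : ℤ) (sw : Bool) (t : ℤ × ℤ) (p : ℤ × ℤ) : ℤ × ℤ :=
  if sw then (t.1 + a * p.2, t.2 + b * p.1) else (t.1 + a * p.1, t.2 + b * p.2)

/-- `gridSym` as a bijection of the grid. -/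
def gridSymEquiv (a b : ℤ) (ha : a = 1 ∨ a = -1) (hb : b = 1 ∨ b = -1) (sw : Bool) (t : ℤ × ℤ) :
    (ℤ × ℤ) ≃ (ℤ × ℤ) where
  toFun := gridSym a b sw t
  invFun q := if sw then (b * (q.2 - t.2), a * (q.1 - t.1)) else (a * (q.1 - t.1), b * (q.2 - t.2))
  left_inv := by
    rintro ⟨x, y⟩
    rcases ha with rfl | rfl <;> rcases hb with rfl | rfl <;> cases sw <;> simp [gridSym]
  right_inv := by
    rintro ⟨x, y⟩
    rcases ha with rfl | rfl <;> rcases hb with rfl | rfl <;> cases sw <;> simp [gridSym]

theorem gridSymEquiv_apply (a b : ℤ) (ha : a = 1 ∨ a = -1) (hb : b = 1 ∨ b = -1) (sw : Bool)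
    (t p : ℤ × ℤ) : gridSymEquiv a b ha hb sw t p = gridSym a b sw t p := rfl

/-- The allowed copies of Snaky are preserved by the symmetries of the grid. -/
theorem isSnakyCopy_image_gridSym {a b : ℤ} (ha : a = 1 ∨ a = -1) (hb : b = 1 ∨ b = -1)
    (sw : Bool) (t : ℤ × ℤ) {A : Finset (ℤ × ℤ)} (hA : IsSnakyCopy A) :
    IsSnakyCopy (A.image (gridSym a b sw t)) := by
  obtain ⟨a0, b0, ha0, hb0, t0, hA | hA⟩ := hA
  · cases sw
    · refine ⟨a * a0, b * b0, ?_, ?_, (t.1 + a * t0.1, t.2 + b * t0.2), Or.inl ?_⟩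
      · rcases ha with rfl | rfl <;> rcases ha0 with rfl | rfl <;> simp
      · rcases hb with rfl | rfl <;> rcases hb0 with rfl | rfl <;> simp
      · rw [hA, Finset.image_image]
        refine Finset.image_congr (fun p _ => ?_)
        simp only [Function.comp, gridSym, Bool.false_eq_true, if_false]
        exact Prod.ext (by ring) (by ring)
    · refine ⟨a * b0, b * a0, ?_, ?_, (t.1 + a * t0.2, t.2 + b * t0.1), Or.inr ?_⟩
      · rcases ha with rfl | rfl <;> rcases hb0 with rfl | rfl <;> simp
      · rcases hb with rfl | rfl <;> rcases ha0 with rfl | rfl <;> simp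
      · rw [hA, Finset.image_image]
        refine Finset.image_congr (fun p _ => ?_)
        simp only [Function.comp, gridSym, if_true]
        exact Prod.ext (by ring) (by ring)
  · cases sw
    · refine ⟨a * a0, b * b0, ?_, ?_, (t.1 + a * t0.1, t.2 + b * t0.2), Or.inr ?_⟩
      · rcases ha with rfl | rfl <;> rcases ha0 with rfl | rfl <;> simp
      · rcases hb with rfl | rfl <;> rcases hb0 with rfl | rfl <;> simp
      · rw [hA, Finset.image_image]
        refine Finset.image_congr (fun p _ => ?_)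
        simp only [Function.comp, gridSym, Bool.false_eq_true, if_false]
        exact Prod.ext (by ring) (by ring)
    · refine ⟨a * b0, b * a0, ?_, ?_, (t.1 + a * t0.2, t.2 + b * t0.1), Or.inl ?_⟩
      · rcases ha with rfl | rfl <;> rcases hb0 with rfl | rfl <;> simp
      · rcases hb with rfl | rfl <;> rcases ha0 with rfl | rfl <;> simp
      · rw [hA, Finset.image_image]
        refine Finset.image_congr (fun p _ => ?_)
        simp only [Function.comp, gridSym, if_true]
        exact Prod.ext (by ring) (by ring)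

/-- Winning positions of the Snaky game in the plane are preserved by the symmetries of the
grid. -/
theorem MWin.gridSym {a b : ℤ} (ha : a = 1 ∨ a = -1) (hb : b = 1 ∨ b = -1) (sw : Bool)
    (t : ℤ × ℤ) {n : ℕ} {M K : Finset (ℤ × ℤ)}
    (h : MWin (Set.univ : Set (ℤ × ℤ)) {A | IsSnakyCopy A} n M K) :
    MWin (Set.univ : Set (ℤ × ℤ)) {A | IsSnakyCopy A} n
      (M.image (Vale.Agent.Lib.P062.gridSym a b sw t))
      (K.image (Vale.Agent.Lib.P062.gridSym a b sw t)) := by
  refine MWin.image_equiv (gridSymEquiv a b ha hb sw t) (fun c => ?_) (fun A hA => ?_) h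
  · simp
  · exact isSnakyCopy_image_gridSym ha hb sw t hA

end Vale.Agent.Lib.P062
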