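import Vale.Agent.Lib.P062.MakerZone

/-!
# Bitmask coding of finite sets of cells (P062)

Cells of the grid are coded by natural numbers, `c ↦ (c % 27 - 13, c / 27 - 13)` (rows of width
27, the cell `(0, 0)` has code `364`), and finite sets of cells by the bitmasks of their codes.
This file gives the meaning of the bitmask operations used by the proof-tree checker.
-/

namespace Vale.Agent.Lib.P062

/-- The cell with code `c`. -/
def cellOf (c : ℕ) : ℤ × ℤ := (((c % 27 : ℕ) : ℤ) - 13, ((c / 27 : ℕ) : ℤ) - 13)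

theorem cellOf_injective : Function.Injective cellOf := by
  intro c c' h
  unfold cellOf at h
  have h1 := congrArg Prod.fst h
  have h2 := congrArg Prod.snd h
  simp only at h1 h2
  omega

/-- The set of cells whose codes are the bits of `m`. -/
def cellsOf (m : ℕ) : Finset (ℤ × ℤ) :=
  ((Finset.range m).filter (fun i => m.testBit i = true)).image cellOf

theorem mem_cellsOf {m : ℕ} {p : ℤ × ℤ} :
    p ∈ cellsOf m ↔ ∃ i, m.testBit i = true ∧ cellOf i = p := by
  unfold cellsOf
  rw [Finset.mem_image]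
  constructor
  · rintro ⟨i, hi, rfl⟩
    rw [Finset.mem_filter] at hi
    exact ⟨i, hi.2, rfl⟩
  · rintro ⟨i, hi, rfl⟩
    refine ⟨i, ?_, rfl⟩
    rw [Finset.mem_filter, Finset.mem_range]
    refine ⟨?_, hi⟩
    have h1 : 2 ^ i ≤ m := Nat.ge_two_pow_of_testBit hi
    have h2 : i < 2 ^ i := Nat.lt_two_pow_self
    omega

theorem cellOf_mem_cellsOf {m c : ℕ} : cellOf c ∈ cellsOf m ↔ m.testBit c = true := by
  rw [mem_cellsOf]
  constructor
  · rintro ⟨i, hi, hic⟩
    rw [← cellOf_injective hic]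
    exact hi
  · intro h
    exact ⟨c, h, rfl⟩

theorem cellOf_notMem_cellsOf {m c : ℕ} : cellOf c ∉ cellsOf m ↔ m.testBit c = false := by
  rw [cellOf_mem_cellsOf]
  simp

theorem cellsOf_zero : cellsOf 0 = ∅ := by
  ext p
  rw [mem_cellsOf]
  simp

theorem cellsOf_or (m n : ℕ) : cellsOf (m ||| n) = cellsOf m ∪ cellsOf n := by
  ext p
  simp only [mem_cellsOf, Finset.mem_union, Nat.testBit_or, Bool.or_eq_true]
  constructor
  · rintro ⟨i, hi | hi, rfl⟩
    · exact Or.inl ⟨i, hi, rfl⟩
    · exact Or.inr ⟨i, hi, rfl⟩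
  · rintro (⟨i, hi, rfl⟩ | ⟨i, hi, rfl⟩)
    · exact ⟨i, Or.inl hi, rfl⟩
    · exact ⟨i, Or.inr hi, rfl⟩

theorem cellsOf_and (m n : ℕ) : cellsOf (m &&& n) = cellsOf m ∩ cellsOf n := by
  ext p
  simp only [mem_cellsOf, Finset.mem_inter, Nat.testBit_and, Bool.and_eq_true]
  constructor
  · rintro ⟨i, ⟨h1, h2⟩, rfl⟩
    exact ⟨⟨i, h1, rfl⟩, ⟨i, h2, rfl⟩⟩
  · rintro ⟨⟨i, h1, rfl⟩, ⟨j, h2, hj⟩⟩
    have hji := cellOf_injective hj
    subst hji
    exact ⟨j, ⟨h1, h2⟩, rfl⟩

theorem cellsOf_bit (c : ℕ) : cellsOf (1 <<< c) = {cellOf c} := by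
  ext p
  rw [mem_cellsOf, Finset.mem_singleton]
  simp only [Nat.one_shiftLeft, Nat.testBit_two_pow]
  constructor
  · rintro ⟨i, hi, rfl⟩
    have hci : c = i := by simpa using hi
    rw [hci]
  · rintro rfl
    exact ⟨c, by simp, rfl⟩

theorem cellsOf_insert (m c : ℕ) : cellsOf (m ||| 1 <<< c) = insert (cellOf c) (cellsOf m) := by
  rw [cellsOf_or, cellsOf_bit, Finset.union_comm, Finset.insert_eq]

theorem cellsOf_subset {m n : ℕ} (h : m &&& n = m) : cellsOf m ⊆ cellsOf n := by
  rw [← h, cellsOf_and]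
  exact Finset.inter_subset_right

theorem cellsOf_diff (m n : ℕ) : cellsOf (m ^^^ (m &&& n)) = cellsOf m \ cellsOf n := by
  ext p
  simp only [mem_cellsOf, Finset.mem_sdiff, Nat.testBit_xor, Nat.testBit_and]
  constructor
  · rintro ⟨i, hi, rfl⟩
    have h1 : m.testBit i = true := by
      cases hm : m.testBit i
      · simp [hm] at hi
      · rfl
    have h2 : n.testBit i = false := by
      cases hn : n.testBit i
      · rfl
      · simp [h1, hn] at hi
    refine ⟨⟨i, h1, rfl⟩, ?_⟩
    rintro ⟨j, hj, hji⟩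
    have hji' := cellOf_injective hji
    subst hji'
    rw [h2] at hj
    exact Bool.false_ne_true hj
  · rintro ⟨⟨i, hi, rfl⟩, hnot⟩
    refine ⟨i, ?_, rfl⟩
    have h2 : n.testBit i = false := by
      cases hn : n.testBit i
      · rfl
      · exact absurd ⟨i, hn, rfl⟩ hnot
    simp [hi, h2]

/-- The bitmask with the bits listed in `l`. -/
def maskOfList : List ℕ → ℕ
  | [] => 0
  | c :: l => maskOfList l ||| 1 <<< c

theorem cellsOf_maskOfList (l : List ℕ) : cellsOf (maskOfList l) = (l.map cellOf).toFinset := by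
  induction l with
  | nil => simp [maskOfList, cellsOf_zero]
  | cons c l ih => simp [maskOfList, cellsOf_insert, ih]

theorem testBit_maskOfList (l : List ℕ) (i : ℕ) :
    (maskOfList l).testBit i = true ↔ i ∈ l := by
  induction l with
  | nil => simp [maskOfList]
  | cons c l ih =>
    simp only [maskOfList, Nat.testBit_or, Bool.or_eq_true, ih, Nat.one_shiftLeft,
      Nat.testBit_two_pow, decide_eq_true_eq, List.mem_cons]
    constructor
    · rintro (h | h)
      · exact Or.inr h
      · exact Or.inl h.symm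
    · rintro (h | h)
      · exact Or.inr h.symm
      · exact Or.inl h

/-- Shifting a bitmask translates its cells, provided no bit is carried into the next row. -/
theorem cellsOf_shiftLeft {m s : ℕ} (h : ∀ i, m.testBit i = true → i % 27 + s % 27 < 27) :
    cellsOf (m <<< s) =
      (cellsOf m).image (fun p => (p.1 + ((s % 27 : ℕ) : ℤ), p.2 + ((s / 27 : ℕ) : ℤ))) := by
  ext p
  rw [mem_cellsOf, Finset.mem_image]
  constructor
  · rintro ⟨j, hj, rfl⟩
    rw [Nat.testBit_shiftLeft] at hj
    simp only [Bool.and_eq_true, decide_eq_true_eq] at hj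
    obtain ⟨hjs, hj⟩ := hj
    refine ⟨cellOf (j - s), mem_cellsOf.mpr ⟨j - s, hj, rfl⟩, ?_⟩
    have hw := h _ hj
    unfold cellOf
    refine Prod.ext ?_ ?_
    · simp only
      omega
    · simp only
      omega
  · rintro ⟨q, hq, rfl⟩
    obtain ⟨i, hi, rfl⟩ := mem_cellsOf.mp hq
    refine ⟨i + s, ?_, ?_⟩
    · rw [Nat.testBit_shiftLeft]
      simp [hi]
    · have hw := h _ hi
      unfold cellOf
      refine Prod.ext ?_ ?_
      · simp only
        omega
      · simp only
        omega

/-! ### The copies of Snaky as bitmasks -/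

/-- The codes of the six cells of the copy of Snaky with orientation `o` (`o < 8`) whose bounding
box has its lower-left corner at the cell with code `0`. -/
def copyCodes : ℕ → List ℕ
  | 0 => [0, 1, 2, 3, 30, 31]
  | 1 => [4, 3, 2, 1, 28, 27]
  | 2 => [27, 28, 29, 30, 3, 4]
  | 3 => [31, 30, 29, 28, 1, 0]
  | 4 => [0, 27, 54, 81, 82, 109]
  | 5 => [1, 28, 55, 82, 81, 108]
  | 6 => [108, 81, 54, 27, 28, 1]
  | _ => [109, 82, 55, 28, 27, 0]

/-- The bitmask of `copyCodes o`. -/
def copyBase : ℕ → ℕ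
  | 0 => 3221225487
  | 1 => 402653214
  | 2 => 2013265944
  | 3 => 4026531843
  | 4 => 649037114570408389268485733089281
  | 5 => 324518560911981680499728356212738
  | 6 => 324518556076278384026813282123778
  | _ => 649037112152556768053626161594369

/-- The width of the bounding box of the copies with orientation `o`. -/
def copyWidth (o : ℕ) : ℕ := if o < 4 then 5 else 2

/-- The bitmask of the copy of Snaky with orientation `o` whose bounding box has its lower-left
corner at the cell with code `s`. -/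
def copyMask (o s : ℕ) : ℕ := copyBase o <<< s

theorem copyBase_eq (o : ℕ) : copyBase o = maskOfList (copyCodes o) := by
  rcases o with _ | _ | _ | _ | _ | _ | _ | _ | o <;> rfl

theorem copyCodes_mod (o i : ℕ) (hi : i ∈ copyCodes o) : i % 27 < copyWidth o := by
  rcases o with _ | _ | _ | _ | _ | _ | _ | _ | o <;>
    simp only [copyCodes, List.mem_cons, List.not_mem_nil, or_false] at hi <;>
    rcases hi with rfl | rfl | rfl | rfl | rfl | rfl <;> unfold copyWidth <;> split_ifs <;> omega

theorem isSnakyCopy_copyBase (o : ℕ) : IsSnakyCopy (cellsOf (copyBase o)) := by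
  rw [copyBase_eq, cellsOf_maskOfList]
  rcases o with _ | _ | _ | _ | _ | _ | _ | _ | o
  · exact ⟨1, 1, Or.inl rfl, Or.inl rfl, (-13, -13), Or.inl (by decide)⟩
  · exact ⟨-1, 1, Or.inr rfl, Or.inl rfl, (-9, -13), Or.inl (by decide)⟩
  · exact ⟨1, -1, Or.inl rfl, Or.inr rfl, (-13, -12), Or.inl (by decide)⟩
  · exact ⟨-1, -1, Or.inr rfl, Or.inr rfl, (-9, -12), Or.inl (by decide)⟩
  · exact ⟨1, 1, Or.inl rfl, Or.inl rfl, (-13, -13), Or.inr (by decide)⟩
  · exact ⟨-1, 1, Or.inr rfl, Or.inl rfl, (-12, -13), Or.inr (by decide)⟩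
  · exact ⟨1, -1, Or.inl rfl, Or.inr rfl, (-13, -9), Or.inr (by decide)⟩
  · exact ⟨-1, -1, Or.inr rfl, Or.inr rfl, (-12, -9), Or.inr (by decide)⟩
  · have h8 : copyCodes (o + 1 + 1 + 1 + 1 + 1 + 1 + 1 + 1) = copyCodes 7 := rfl
    rw [h8]
    exact ⟨-1, -1, Or.inr rfl, Or.inr rfl, (-12, -9), Or.inr (by decide)⟩

/-- Every `copyMask o s` whose bounding box does not cross the right border of a row is the
bitmask of an allowed copy of Snaky. -/
theorem isSnakyCopy_copyMask {o s : ℕ} (hs : s % 27 + copyWidth o ≤ 27) :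
    IsSnakyCopy (cellsOf (copyMask o s)) := by
  unfold copyMask
  rw [cellsOf_shiftLeft]
  · have h := isSnakyCopy_image_gridSym (a := 1) (b := 1) (Or.inl rfl) (Or.inl rfl) false
      (((s % 27 : ℕ) : ℤ), ((s / 27 : ℕ) : ℤ)) (isSnakyCopy_copyBase o)
    have hfun : gridSym 1 1 false (((s % 27 : ℕ) : ℤ), ((s / 27 : ℕ) : ℤ)) =
        fun p : ℤ × ℤ => (p.1 + ((s % 27 : ℕ) : ℤ), p.2 + ((s / 27 : ℕ) : ℤ)) := by
      funext p
      simp only [gridSym, Bool.false_eq_true, if_false]
      exact Prod.ext (by ring) (by ring)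
    rw [hfun] at h
    exact h
  · intro i hi
    rw [copyBase_eq, testBit_maskOfList] at hi
    have hmod := copyCodes_mod o i hi
    omega

/-- The meaning of the threat test of the checker: if the copy `copyMask o s` lies inside the
cells `X`, then the cells of `X` contain an allowed copy of Snaky. -/
theorem copy_subset_of_and {o s X : ℕ} (hs : s % 27 + copyWidth o ≤ 27)
    (h : copyMask o s &&& X = copyMask o s) :
    ∃ A ∈ {A : Finset (ℤ × ℤ) | IsSnakyCopy A}, A ⊆ cellsOf X :=
  ⟨cellsOf (copyMask o s), isSnakyCopy_copyMask hs, cellsOf_subset h⟩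

end Vale.Agent.Lib.P062
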