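import Vale.Agent.Lib.P062.Root

/-!
# Symmetries on bitmasks (P062)

`symMask i m` is the bitmask of the image of the cells of `m` under the `i`-th symmetry of the
grid fixing `(0, 0)` (see `symCode`).  `Won.sym` transports a won position along a symmetry, so
that a mirror image of a checked proof tree needs no second check.
-/

namespace Vale.Agent.Lib.P062

section general

variable {C : Type} [DecidableEq C] {B : Set C} {W : Set (Finset C)}

/-- Zone wins are preserved by every symmetry of the board that maps winning sets to winning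
sets. -/
theorem ZoneWin.image_equiv (g : C ≃ C) (hB : ∀ c, c ∈ B ↔ g c ∈ B)
    (hW : ∀ A ∈ W, A.image g ∈ W) {n : ℕ} {M K Z : Finset C} (h : ZoneWin B W n M K Z) :
    ZoneWin B W n (M.image g) (K.image g) (Z.image g) := by
  intro K' hK'
  have h1 : MWin B W n M (K'.image g.symm) := by
    refine h.apply _ ?_
    intro x hx hxZ
    obtain ⟨y, hy, rfl⟩ := Finset.mem_image.mp hx
    have hy' : y ∈ K' ∩ Z.image g := by
      refine Finset.mem_inter.mpr ⟨hy, ?_⟩
      have hgy : g (g.symm y) = y := g.apply_symm_apply y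
      rw [← hgy]
      exact Finset.mem_image_of_mem g hxZ
    obtain ⟨k, hk, hky⟩ := Finset.mem_image.mp (hK' hy')
    rw [← hky, g.symm_apply_apply]
    exact hk
  have h2 := h1.image_equiv g hB hW
  have h3 : (K'.image g.symm).image g = K' := by
    rw [Finset.image_image]
    have hcomp : (g : C → C) ∘ (g.symm : C → C) = id := by
      funext y
      exact g.apply_symm_apply y
    rw [hcomp, Finset.image_id]
  rw [h3] at h2
  exact h2

end general

/-- Zone wins of the Snaky game in the plane are preserved by the symmetries of the grid. -/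
theorem ZoneWin.gridSym {a b : ℤ} (ha : a = 1 ∨ a = -1) (hb : b = 1 ∨ b = -1) (sw : Bool)
    (t : ℤ × ℤ) {n : ℕ} {M K Z : Finset (ℤ × ℤ)}
    (h : ZoneWin (Set.univ : Set (ℤ × ℤ)) {A | IsSnakyCopy A} n M K Z) :
    ZoneWin (Set.univ : Set (ℤ × ℤ)) {A | IsSnakyCopy A} n
      (M.image (Vale.Agent.Lib.P062.gridSym a b sw t))
      (K.image (Vale.Agent.Lib.P062.gridSym a b sw t))
      (Z.image (Vale.Agent.Lib.P062.gridSym a b sw t)) := by
  refine ZoneWin.image_equiv (gridSymEquiv a b ha hb sw t) (fun c => ?_) (fun A hA => ?_) h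
  · simp
  · exact isSnakyCopy_image_gridSym ha hb sw t hA

/-- The bitmask of the images under the `i`-th symmetry of the cells of `m` with codes below
`729`. -/
def symMask (i m : ℕ) : ℕ :=
  (List.range 729).foldl (fun acc c => if m.testBit c = true then acc ||| 1 <<< symCode i c else acc) 0

theorem testBit_foldl_or (P : ℕ → Prop) [DecidablePred P] (f : ℕ → ℕ) (j : ℕ) :
    ∀ (l : List ℕ) (a : ℕ),
      (l.foldl (fun acc c => if P c then acc ||| 1 <<< f c else acc) a).testBit j = true ↔
        a.testBit j = true ∨ ∃ c ∈ l, P c ∧ f c = j := by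
  intro l
  induction l with
  | nil =>
    intro a
    simp
  | cons c l ih =>
    intro a
    rw [List.foldl_cons, ih]
    by_cases hc : P c
    · rw [if_pos hc, Nat.testBit_or, Bool.or_eq_true, Nat.one_shiftLeft, Nat.testBit_two_pow,
        decide_eq_true_eq]
      constructor
      · rintro ((h | h) | ⟨c', hc', hP, hf⟩)
        · exact Or.inl h
        · exact Or.inr ⟨c, List.mem_cons_self, hc, h⟩
        · exact Or.inr ⟨c', List.mem_cons_of_mem _ hc', hP, hf⟩
      · rintro (h | ⟨c', hc', hP, hf⟩)
        · exact Or.inl (Or.inl h)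
        · rcases List.mem_cons.mp hc' with rfl | hc''
          · exact Or.inl (Or.inr hf)
          · exact Or.inr ⟨c', hc'', hP, hf⟩
    · rw [if_neg hc]
      constructor
      · rintro (h | ⟨c', hc', hP, hf⟩)
        · exact Or.inl h
        · exact Or.inr ⟨c', List.mem_cons_of_mem _ hc', hP, hf⟩
      · rintro (h | ⟨c', hc', hP, hf⟩)
        · exact Or.inl h
        · rcases List.mem_cons.mp hc' with rfl | hc''
          · exact absurd hP hc
          · exact Or.inr ⟨c', hc'', hP, hf⟩

theorem testBit_symMask (i m j : ℕ) :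
    (symMask i m).testBit j = true ↔ ∃ c, c < 729 ∧ m.testBit c = true ∧ symCode i c = j := by
  unfold symMask
  rw [testBit_foldl_or (fun c => m.testBit c = true) (symCode i) j]
  constructor
  · rintro (h | ⟨c, hc, hP, hf⟩)
    · simp at h
    · exact ⟨c, List.mem_range.mp hc, hP, hf⟩
  · rintro ⟨c, hc, hP, hf⟩
    exact Or.inr ⟨c, List.mem_range.mpr hc, hP, hf⟩

/-- The cells of `symMask i m` are the images of the cells of `m`. -/
theorem cellsOf_symMask {i m : ℕ} (hi : i < 8) (hm : m < 2 ^ 729) :
    cellsOf (symMask i m) =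
      (cellsOf m).image (gridSym (symA i) (symB i) (symSw i) (0, 0)) := by
  ext p
  rw [mem_cellsOf, Finset.mem_image]
  constructor
  · rintro ⟨j, hj, rfl⟩
    obtain ⟨c, hc, hmc, rfl⟩ := (testBit_symMask i m j).mp hj
    exact ⟨cellOf c, cellOf_mem_cellsOf.mpr hmc, (symCode_spec hi hc).symm⟩
  · rintro ⟨q, hq, rfl⟩
    obtain ⟨c, hmc, rfl⟩ := mem_cellsOf.mp hq
    have hc : c < 729 := lt_of_testBit_of_lt_pow hmc hm
    exact ⟨symCode i c, (testBit_symMask i m _).mpr ⟨c, hc, hmc, rfl⟩, symCode_spec hi hc⟩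

/-- A won position stays won after a symmetry of the grid fixing `(0, 0)`. -/
theorem Won.sym {M K Z n : ℕ} (i : ℕ) (hi : i < 8) (hM : M < 2 ^ 729) (hK : K < 2 ^ 729)
    (hZ : Z < 2 ^ 729) (h : Won M K Z n) : Won (symMask i M) (symMask i K) (symMask i Z) n := by
  unfold Won at h ⊢
  rw [cellsOf_symMask hi hM, cellsOf_symMask hi hK, cellsOf_symMask hi hZ]
  exact h.gridSym (symA_sq i) (symB_sq i) (symSw i) (0, 0)

theorem lt_pow_of_shiftRight_eq_zero {m k : ℕ} (h : m >>> k = 0) : m < 2 ^ k := by
  rw [Nat.shiftRight_eq_div_pow] at h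
  by_contra hge
  have h1 : 2 ^ k ≤ m := not_lt.mp hge
  have h2 : 0 < m / 2 ^ k := Nat.div_pos h1 (Nat.two_pow_pos k)
  omega

/-- `Won.sym` with side conditions that evaluate: `i < 8` and no bit at or above `729`. -/
theorem Won.sym_of_shift {M K Z n : ℕ} (i : ℕ) (hi : i < 8) (hM : M >>> 729 = 0)
    (hK : K >>> 729 = 0) (hZ : Z >>> 729 = 0) (h : Won M K Z n) :
    Won (symMask i M) (symMask i K) (symMask i Z) n :=
  h.sym i hi (lt_pow_of_shiftRight_eq_zero hM) (lt_pow_of_shiftRight_eq_zero hK)
    (lt_pow_of_shiftRight_eq_zero hZ)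

end Vale.Agent.Lib.P062
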