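import Vale.Agent.Lib.P062.Defs

namespace Vale.Agent.Lib.P062

open Classical in
/-- Breaker's answer to the new Maker move `c`, given the earlier Maker moves `hs` and Breaker cells `rs`. -/
noncomputable def pairChoice {C : Type} (B : Set C) (p : C → C) (c : C) (hs rs : List C) : C :=
  if p c ∈ B ∧ p c ≠ c ∧ p c ∉ hs ∧ p c ∉ rs then p c
  else if h : ∃ x, x ∈ B ∧ x ∉ c :: hs ∧ x ∉ rs then Classical.choose h
  else c

/-- All replies of the pairing strategy. -/
noncomputable def pairReplies {C : Type} (B : Set C) (p : C → C) : List C → List C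
  | [] => []
  | c :: hs => pairChoice B p c hs (pairReplies B p hs) :: pairReplies B p hs

/-- The pairing strategy. -/
noncomputable def pairStrat {C : Type} [Inhabited C] (B : Set C) (p : C → C) : List C → C
  | [] => default
  | c :: hs => pairChoice B p c hs (pairReplies B p hs)

theorem replies_pairStrat {C : Type} [Inhabited C] (B : Set C) (p : C → C) (hs : List C) :
    replies (pairStrat B p) hs = pairReplies B p hs := by
  induction hs with
  | nil => rfl
  | cons c hs ih => simp [replies, pairReplies, pairStrat, ih]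

theorem pairChoice_spec {C : Type} (B : Set C) (p : C → C) (c : C) (hs rs : List C) :
    (pairChoice B p c hs rs ∈ B ∧ pairChoice B p c hs rs ∉ c :: hs ∧ pairChoice B p c hs rs ∉ rs) ∨
    (∀ x ∈ B, x ∈ c :: hs ∨ x ∈ rs) := by
  classical
  unfold pairChoice
  by_cases h1 : p c ∈ B ∧ p c ≠ c ∧ p c ∉ hs ∧ p c ∉ rs
  · left
    rw [if_pos h1]
    refine ⟨h1.1, ?_, h1.2.2.2⟩
    simp only [List.mem_cons, not_or]
    exact ⟨h1.2.1, h1.2.2.1⟩
  · rw [if_neg h1]
    by_cases h2 : ∃ x, x ∈ B ∧ x ∉ c :: hs ∧ x ∉ rs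
    · left
      rw [dif_pos h2]
      exact Classical.choose_spec h2
    · right
      intro x hx
      by_contra hcon
      exact h2 ⟨x, hx, fun h => hcon (Or.inl h), fun h => hcon (Or.inr h)⟩

theorem pairStrat_legal {C : Type} [Inhabited C] (B : Set C) (p : C → C) :
    LegalStrategy B (pairStrat B p) := by
  intro c hs _
  rw [replies_pairStrat]
  exact pairChoice_spec B p c hs _

/-- Invariant of a legal play against the pairing strategy: the partner (inside the board) of each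
Maker cell is a Breaker cell and not a Maker cell. -/
theorem pair_invariant {C : Type} [Inhabited C] (B : Set C) (p : C → C) (hp : ∀ c, p (p c) = c)
    (hs : List C) (hl : LegalPlay B (pairStrat B p) hs) :
    (∀ x ∈ hs, x ∈ B) ∧
    (∀ x ∈ hs, p x ∈ B → p x ≠ x → p x ∈ pairReplies B p hs ∧ p x ∉ hs) := by
  classical
  induction hs with
  | nil => simp
  | cons c hs ih =>
    obtain ⟨hl1, hcB, hc1, hc2⟩ := hl
    rw [replies_pairStrat] at hc2
    obtain ⟨ihB, ih2⟩ := ih hl1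
    refine ⟨?_, ?_⟩
    · intro x hx
      rcases List.mem_cons.1 hx with rfl | hx
      · exact hcB
      · exact ihB x hx
    · intro x hx hxB hxne
      rcases List.mem_cons.1 hx with rfl | hx
      · have hnot : p x ∉ hs := by
          intro hmem
          have h3 := ih2 (p x) hmem (by rw [hp]; exact hcB) (by rw [hp]; exact fun h => hxne h.symm)
          rw [hp] at h3
          exact hc2 h3.1
        refine ⟨?_, ?_⟩
        · by_cases hr : p x ∈ pairReplies B p hs
          · exact List.mem_cons_of_mem _ hr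
          · have : pairChoice B p x hs (pairReplies B p hs) = p x := by
              unfold pairChoice
              rw [if_pos ⟨hxB, hxne, hnot, hr⟩]
            show p x ∈ pairChoice B p x hs (pairReplies B p hs) :: pairReplies B p hs
            rw [this]
            exact List.mem_cons_self
        · simp only [List.mem_cons, not_or]
          exact ⟨hxne, hnot⟩
      · obtain ⟨h3, h4⟩ := ih2 x hx hxB hxne
        refine ⟨List.mem_cons_of_mem _ h3, ?_⟩
        simp only [List.mem_cons, not_or]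
        refine ⟨?_, h4⟩
        intro heq
        exact hc2 (heq ▸ h3)

/-- A pairing (an involution `p` such that every winning set lies in the board and contains a pair
`c ≠ p c`) gives Breaker a winning strategy. -/
theorem breakerWins_of_pairing {C : Type} [Inhabited C] [DecidableEq C] (B : Set C) (W : Set (Finset C))
    (p : C → C) (hp : ∀ c, p (p c) = c)
    (hW : ∀ A ∈ W, (∀ x ∈ A, x ∈ B) ∧ ∃ c ∈ A, p c ∈ A ∧ p c ≠ c) : BreakerWins B W := by
  refine ⟨pairStrat B p, pairStrat_legal B p, ?_⟩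
  intro hs hl A hA hsub
  obtain ⟨hAB, c, hc, hpc, hne⟩ := hW A hA
  obtain ⟨_, hinv⟩ := pair_invariant B p hp hs hl
  have h1 : c ∈ hs := List.mem_toFinset.1 (hsub hc)
  have h2 : p c ∈ hs := List.mem_toFinset.1 (hsub hpc)
  exact (hinv c h1 (hAB _ hpc) hne).2 h2

/-- The partner of a cell in the pairing of the strip of height five (period six in the first coordinate). -/
def partner (c : ℤ × ℤ) : ℤ × ℤ :=
  if c.2 = 0 then
    (if c.1 % 3 = 0 then (c.1, 1) else if c.1 % 3 = 1 then (c.1 + 1, 0) else (c.1 - 1, 0))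
  else if c.2 = 1 then
    (if c.1 % 3 = 0 then (c.1, 0) else if c.1 % 3 = 1 then (c.1 + 1, 1) else (c.1 - 1, 1))
  else if c.2 = 2 then
    (if c.1 % 2 = 0 then (c.1 + 1, 2) else (c.1 - 1, 2))
  else if c.2 = 3 then
    (if c.1 % 3 = 0 then (c.1, 4) else if c.1 % 3 = 1 then (c.1 + 1, 3) else (c.1 - 1, 3))
  else if c.2 = 4 then
    (if c.1 % 3 = 0 then (c.1, 3) else if c.1 % 3 = 1 then (c.1 - 2, 4) else (c.1 + 2, 4))
  else c

theorem partner_shift (x y q : ℤ) :
    partner (x + 6 * q, y) = ((partner (x, y)).1 + 6 * q, (partner (x, y)).2) := by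
  unfold partner
  have h3 : (x + 6 * q) % 3 = x % 3 := by omega
  have h2 : (x + 6 * q) % 2 = x % 2 := by omega
  simp only [h3, h2]
  split_ifs <;> simp <;> ring

theorem partner_invol_fin : ∀ r : Fin 6, ∀ y : Fin 5,
    partner (partner (((r : ℕ) : ℤ), ((y : ℕ) : ℤ))) = (((r : ℕ) : ℤ), ((y : ℕ) : ℤ)) := by
  decide

theorem partner_outside (x y : ℤ) (h : ¬ (0 ≤ y ∧ y < 5)) : partner (x, y) = (x, y) := by
  unfold partner
  have h0 : y ≠ 0 := by omega
  have h1 : y ≠ 1 := by omega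
  have h2 : y ≠ 2 := by omega
  have h3 : y ≠ 3 := by omega
  have h4 : y ≠ 4 := by omega
  simp [h0, h1, h2, h3, h4]

theorem partner_invol (c : ℤ × ℤ) : partner (partner c) = c := by
  obtain ⟨x, y⟩ := c
  by_cases hy : 0 ≤ y ∧ y < 5
  · obtain ⟨q, r, hr0, hr6, rfl⟩ : ∃ q r : ℤ, 0 ≤ r ∧ r < 6 ∧ x = r + 6 * q :=
      ⟨x / 6, x % 6, by omega, by omega, by omega⟩
    obtain ⟨rn, rfl⟩ := Int.eq_ofNat_of_zero_le hr0
    obtain ⟨yn, rfl⟩ := Int.eq_ofNat_of_zero_le hy.1
    have hrn : rn < 6 := by omega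
    have hyn : yn < 5 := by omega
    have hfin := partner_invol_fin ⟨rn, hrn⟩ ⟨yn, hyn⟩
    simp only at hfin
    rw [partner_shift, partner_shift, hfin]
  · rw [partner_outside x y hy, partner_outside x y hy]

/-- The six cells of Snaky as a list. -/
def snakyList : List (ℤ × ℤ) := [(0, 0), (1, 0), (2, 0), (3, 0), (3, 1), (4, 1)]

/-- The map `p ↦ t + R p` for the signed permutation with signs `a, b`, swapping coordinates if `sw`. -/
def omap (a b : ℤ) (sw : Bool) (t : ℤ × ℤ) (p : ℤ × ℤ) : ℤ × ℤ :=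
  if sw then (t.1 + a * p.2, t.2 + b * p.1) else (t.1 + a * p.1, t.2 + b * p.2)

def sgn (s : Bool) : ℤ := if s then 1 else -1

theorem finite_check : ∀ sa sb sw : Bool, ∀ r : Fin 6, ∀ y : Fin 5,
    (∀ c ∈ snakyList.map (omap (sgn sa) (sgn sb) sw (((r : ℕ) : ℤ), ((y : ℕ) : ℤ))), 0 ≤ c.2 ∧ c.2 < 5) →
    ∃ c ∈ snakyList.map (omap (sgn sa) (sgn sb) sw (((r : ℕ) : ℤ), ((y : ℕ) : ℤ))),
      partner c ∈ snakyList.map (omap (sgn sa) (sgn sb) sw (((r : ℕ) : ℤ), ((y : ℕ) : ℤ))) ∧
      partner c ≠ c := by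
  decide

theorem omap_shift (a b : ℤ) (sw : Bool) (r q y : ℤ) (p : ℤ × ℤ) :
    omap a b sw (r + 6 * q, y) p = ((omap a b sw (r, y) p).1 + 6 * q, (omap a b sw (r, y) p).2) := by
  unfold omap
  split_ifs <;> simp <;> ring

theorem list_has_pair (sa sb sw : Bool) (tx ty : ℤ)
    (h : ∀ c ∈ snakyList.map (omap (sgn sa) (sgn sb) sw (tx, ty)), 0 ≤ c.2 ∧ c.2 < 5) :
    ∃ c ∈ snakyList.map (omap (sgn sa) (sgn sb) sw (tx, ty)),
      partner c ∈ snakyList.map (omap (sgn sa) (sgn sb) sw (tx, ty)) ∧ partner c ≠ c := by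
  have hty : 0 ≤ ty ∧ ty < 5 := by
    have h0 := h (omap (sgn sa) (sgn sb) sw (tx, ty) (0, 0))
      (List.mem_map.2 ⟨(0, 0), by simp [snakyList], rfl⟩)
    have h1 : (omap (sgn sa) (sgn sb) sw (tx, ty) (0, 0)).2 = ty := by
      unfold omap
      split_ifs <;> simp
    rw [h1] at h0
    exact h0
  obtain ⟨q, r, hr0, hr6, rfl⟩ : ∃ q r : ℤ, 0 ≤ r ∧ r < 6 ∧ tx = r + 6 * q :=
    ⟨tx / 6, tx % 6, by omega, by omega, by omega⟩
  obtain ⟨rn, rfl⟩ := Int.eq_ofNat_of_zero_le hr0
  obtain ⟨yn, rfl⟩ := Int.eq_ofNat_of_zero_le hty.1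
  have hrn : rn < 6 := by omega
  have hyn : yn < 5 := by omega
  have hfin := finite_check sa sb sw ⟨rn, hrn⟩ ⟨yn, hyn⟩ (by
    intro c hc
    obtain ⟨p, hp, rfl⟩ := List.mem_map.1 hc
    have h2 := h (omap (sgn sa) (sgn sb) sw ((rn : ℤ) + 6 * q, (yn : ℤ)) p)
      (List.mem_map.2 ⟨p, hp, rfl⟩)
    rw [omap_shift] at h2
    exact h2)
  obtain ⟨c, hc, hpc, hne⟩ := hfin
  obtain ⟨p1, hp1, rfl⟩ := List.mem_map.1 hc
  obtain ⟨p2, hp2, hp2eq⟩ := List.mem_map.1 hpc
  simp only at hp2eq hne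
  refine ⟨omap (sgn sa) (sgn sb) sw ((rn : ℤ) + 6 * q, (yn : ℤ)) p1,
    List.mem_map.2 ⟨p1, hp1, rfl⟩, ?_, ?_⟩
  · rw [omap_shift, partner_shift, Prod.mk.eta]
    refine List.mem_map.2 ⟨p2, hp2, ?_⟩
    rw [omap_shift, hp2eq]
  · rw [omap_shift, partner_shift, Prod.mk.eta]
    intro heq
    apply hne
    have h1 := congrArg Prod.fst heq
    have h2 := congrArg Prod.snd heq
    simp only at h1 h2
    exact Prod.ext (by linarith) h2

theorem snaky_eq : snaky = snakyList.toFinset := by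
  decide

theorem copy_has_pair (A : Finset (ℤ × ℤ)) (hA : IsSnakyCopy A)
    (hB : ∀ c ∈ A, 0 ≤ c.2 ∧ c.2 < 5) : ∃ c ∈ A, partner c ∈ A ∧ partner c ≠ c := by
  obtain ⟨a, b, ha, hb, ⟨tx, ty⟩, hA⟩ := hA
  obtain ⟨sa, rfl⟩ : ∃ sa : Bool, a = sgn sa := by
    rcases ha with rfl | rfl
    · exact ⟨true, rfl⟩
    · exact ⟨false, rfl⟩
  obtain ⟨sb, rfl⟩ : ∃ sb : Bool, b = sgn sb := by
    rcases hb with rfl | rfl
    · exact ⟨true, rfl⟩
    · exact ⟨false, rfl⟩
  obtain ⟨sw, rfl⟩ : ∃ sw : Bool, A = (snakyList.map (omap (sgn sa) (sgn sb) sw (tx, ty))).toFinset := by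
    rcases hA with rfl | rfl
    · refine ⟨false, ?_⟩
      rw [snaky_eq]
      ext c
      simp [omap]
    · refine ⟨true, ?_⟩
      rw [snaky_eq]
      ext c
      simp [omap]
  have h := list_has_pair sa sb sw tx ty (fun c hc => hB c (List.mem_toFinset.2 hc))
  obtain ⟨c, hc, hpc, hne⟩ := h
  exact ⟨c, List.mem_toFinset.2 hc, List.mem_toFinset.2 hpc, hne⟩

theorem breakerWins_strip5 (B : Set (ℤ × ℤ)) (hB : ∀ c ∈ B, 0 ≤ c.2 ∧ c.2 < 5) :
    BreakerWins B {A | IsSnakyCopy A ∧ ∀ c ∈ A, c ∈ B} := by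
  apply breakerWins_of_pairing B _ partner partner_invol
  rintro A ⟨hcopy, hAB⟩
  exact ⟨hAB, copy_has_pair A hcopy (fun c hc => hB c (hAB c hc))⟩

end Vale.Agent.Lib.P062
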