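import Vale.Agent.Lib.P062.Check

/-!
# The first reply: assembling the proof trees (P062)

Maker opens at the cell `(0, 0)` (code `364`).  `root_sound` combines
* a win of the position after the opening when Breaker does not answer inside a zone `z0`, and
* wins of the positions after the opening and the replies `b` of a list `reps`, each with a zone,
into wins after the opening and every reply `d` outside a set `bad` of exceptions: a reply inside
`z0` has to be, after one of the eight symmetries of the grid fixing `(0, 0)`, either one of the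
listed replies or a cell outside the zone of one of them.
-/

namespace Vale.Agent.Lib.P062

/-- The code of the image of the cell with code `c < 729` under the `i`-th symmetry of the grid
fixing `(0, 0)`. -/
def symCode (i c : ℕ) : ℕ :=
  match i with
  | 0 => c % 27 + 27 * (c / 27)
  | 1 => (26 - c % 27) + 27 * (c / 27)
  | 2 => c % 27 + 27 * (26 - c / 27)
  | 3 => (26 - c % 27) + 27 * (26 - c / 27)
  | 4 => c / 27 + 27 * (c % 27)
  | 5 => (26 - c / 27) + 27 * (c % 27)
  | 6 => c / 27 + 27 * (26 - c % 27)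
  | _ => (26 - c / 27) + 27 * (26 - c % 27)

/-- The first sign of the `i`-th symmetry. -/
def symA (i : ℕ) : ℤ :=
  match i with
  | 0 => 1 | 1 => -1 | 2 => 1 | 3 => -1 | 4 => 1 | 5 => -1 | 6 => 1 | _ => -1

/-- The second sign of the `i`-th symmetry. -/
def symB (i : ℕ) : ℤ :=
  match i with
  | 0 => 1 | 1 => 1 | 2 => -1 | 3 => -1 | 4 => 1 | 5 => 1 | 6 => -1 | _ => -1

/-- Whether the `i`-th symmetry swaps the coordinates. -/
def symSw (i : ℕ) : Bool :=
  match i with
  | 0 => false | 1 => false | 2 => false | 3 => false | _ => true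

theorem symA_sq (i : ℕ) : symA i = 1 ∨ symA i = -1 := by
  unfold symA
  split <;> simp

theorem symB_sq (i : ℕ) : symB i = 1 ∨ symB i = -1 := by
  unfold symB
  split <;> simp

theorem symCode_spec {i c : ℕ} (hi : i < 8) (hc : c < 729) :
    cellOf (symCode i c) = gridSym (symA i) (symB i) (symSw i) (0, 0) (cellOf c) := by
  have h1 : c % 27 < 27 := Nat.mod_lt _ (by norm_num)
  have h2 : c / 27 < 27 := by omega
  interval_cases i <;>
    simp only [symCode, symA, symB, symSw, gridSym, cellOf, Bool.false_eq_true, if_false,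
      if_true] <;>
    refine Prod.ext ?_ ?_ <;> simp only <;> omega

/-- The inverse of a symmetry fixing `(0, 0)` is again such a symmetry. -/
theorem gridSym_inv {a b : ℤ} (ha : a = 1 ∨ a = -1) (hb : b = 1 ∨ b = -1) (sw : Bool)
    (p : ℤ × ℤ) :
    gridSym (if sw then b else a) (if sw then a else b) sw (0, 0) (gridSym a b sw (0, 0) p) = p := by
  rcases ha with rfl | rfl <;> rcases hb with rfl | rfl <;> cases sw <;> simp [gridSym]

/-- The reply with code `c` is covered by the listed reply `(b, z, n)`: one of its eight images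
is `b` or lies outside the zone `z`. -/
def coveredBy (c : ℕ) (r : ℕ × ℕ × ℕ) : Bool :=
  (List.range 8).any fun i => symCode i c == r.1 || !(r.2.1.testBit (symCode i c))

/-- The test on the first replies. -/
def rootOk (z0 : ℕ) (reps : List (ℕ × ℕ × ℕ)) (bad : ℕ) : Bool :=
  decide (z0 < 2 ^ 729) &&
    (List.range 729).all fun c =>
      !(z0.testBit c) || c == 364 || bad.testBit c || reps.any (coveredBy c)

theorem cellOf_origin : cellOf 364 = (0, 0) := by
  decide

theorem cellsOf_origin : cellsOf (1 <<< 364) = {((0, 0) : ℤ × ℤ)} := by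
  rw [cellsOf_bit, cellOf_origin]

theorem gridSym_origin (a b : ℤ) (sw : Bool) : gridSym a b sw (0, 0) (0, 0) = (0, 0) := by
  cases sw <;> simp [gridSym]

theorem lt_of_testBit_of_lt_pow {z c k : ℕ} (hc : z.testBit c = true) (hz : z < 2 ^ k) :
    c < k := by
  have h1 : 2 ^ c ≤ z := Nat.ge_two_pow_of_testBit hc
  have h2 : 2 ^ c < 2 ^ k := lt_of_le_of_lt h1 hz
  exact (Nat.pow_lt_pow_iff_right (Nat.lt_succ_self 1)).mp h2

/-- A listed reply gives a win after each of the replies that it covers. -/
theorem win_of_coveredBy {c N : ℕ} {r : ℕ × ℕ × ℕ} (hc : c < 729)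
    (hr : Won (1 <<< 364) (1 <<< r.1) r.2.1 r.2.2) (hN : r.2.2 ≤ N)
    (h : coveredBy c r = true) :
    MWin (Set.univ : Set (ℤ × ℤ)) snakyCopies N {(0, 0)} {cellOf c} := by
  unfold coveredBy at h
  rw [List.any_eq_true] at h
  obtain ⟨i, hi, hcond⟩ := h
  rw [List.mem_range] at hi
  unfold Won at hr
  rw [cellsOf_origin, cellsOf_bit] at hr
  have h1 : MWin (Set.univ : Set (ℤ × ℤ)) snakyCopies r.2.2 {(0, 0)}
      {cellOf (symCode i c)} := by
    refine hr.apply _ ?_
    intro x hx hxZ
    rw [Finset.mem_singleton] at hx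
    rw [Finset.mem_singleton]
    rw [Bool.or_eq_true] at hcond
    rcases hcond with hb | hz
    · rw [beq_iff_eq] at hb
      rw [hx, hb]
    · exfalso
      rw [Bool.not_eq_true'] at hz
      rw [hx] at hxZ
      exact (cellOf_notMem_cellsOf.mpr hz) hxZ
  have h2 := (h1.mono_n hN).gridSym
    (a := if symSw i then symB i else symA i) (b := if symSw i then symA i else symB i)
    (by split <;> first | exact symA_sq i | exact symB_sq i)
    (by split <;> first | exact symA_sq i | exact symB_sq i) (symSw i) (0, 0)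
  rw [Finset.image_singleton, Finset.image_singleton, gridSym_origin, symCode_spec hi hc,
    gridSym_inv (symA_sq i) (symB_sq i)] at h2
  exact h2

/-- **Assembly of the first replies.** -/
theorem root_sound {z0 n0 N bad : ℕ} {reps : List (ℕ × ℕ × ℕ)}
    (hnull : Won (1 <<< 364) 0 z0 n0) (hn0 : n0 ≤ N)
    (hreps : ∀ r ∈ reps, Won (1 <<< 364) (1 <<< r.1) r.2.1 r.2.2 ∧ r.2.2 ≤ N)
    (hok : rootOk z0 reps bad = true) :
    ∀ d : ℤ × ℤ, d ≠ (0, 0) → d ∉ cellsOf bad →
      MWin (Set.univ : Set (ℤ × ℤ)) snakyCopies N {(0, 0)} {d} := by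
  intro d hd hbad
  unfold rootOk at hok
  rw [Bool.and_eq_true, decide_eq_true_eq, List.all_eq_true] at hok
  obtain ⟨hz0, hall⟩ := hok
  unfold Won at hnull
  rw [cellsOf_origin, cellsOf_zero] at hnull
  by_cases hz : d ∈ cellsOf z0
  · obtain ⟨c, hc, rfl⟩ := mem_cellsOf.mp hz
    have hc729 : c < 729 := lt_of_testBit_of_lt_pow hc hz0
    have hcond := hall c (List.mem_range.mpr hc729)
    simp only [Bool.or_eq_true, Bool.not_eq_true', beq_iff_eq] at hcond
    rcases hcond with ((hc1 | hc2) | hc3) | hc4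
    · rw [hc] at hc1
      exact absurd hc1 (by simp)
    · exfalso
      apply hd
      rw [hc2, cellOf_origin]
    · exact absurd (cellOf_mem_cellsOf.mpr hc3) hbad
    · rw [List.any_eq_true] at hc4
      obtain ⟨r, hr, hcov⟩ := hc4
      exact win_of_coveredBy hc729 (hreps r hr).1 (hreps r hr).2 hcov
  · exact (hnull.single_outside hz).mono_n hn0

/-- A Maker strategy that opens at `(0, 0)` and wins against every first reply outside `bad`. -/
theorem makerWinsAfter_of_root {z0 n0 N bad : ℕ} {reps : List (ℕ × ℕ × ℕ)}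
    (hnull : Won (1 <<< 364) 0 z0 n0) (hn0 : n0 ≤ N)
    (hreps : ∀ r ∈ reps, Won (1 <<< 364) (1 <<< r.1) r.2.1 r.2.2 ∧ r.2.2 ≤ N)
    (hok : rootOk z0 reps bad = true) :
    MakerWinsAfter (N + 1) (Set.univ : Set (ℤ × ℤ)) {A | IsSnakyCopy A} (0, 0)
      (fun d => d ∉ cellsOf bad) :=
  makerWinsAfter_of_MWin univ_not_exhausted (Set.mem_univ _) _
    (fun d _ hd hgood => root_sound hnull hn0 hreps hok d hd hgood)

/-- With no exceptions: Maker wins the Snaky game in the plane. -/
theorem makerWinsIn_of_root {z0 n0 N : ℕ} {reps : List (ℕ × ℕ × ℕ)}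
    (hnull : Won (1 <<< 364) 0 z0 n0) (hn0 : n0 ≤ N)
    (hreps : ∀ r ∈ reps, Won (1 <<< 364) (1 <<< r.1) r.2.1 r.2.2 ∧ r.2.2 ≤ N)
    (hok : rootOk z0 reps 0 = true) :
    MakerWinsIn (N + 1) (Set.univ : Set (ℤ × ℤ)) {A | IsSnakyCopy A} := by
  refine makerWinsIn_of_MWin univ_not_exhausted (MWin.of_opening (c0 := (0, 0)) (Set.mem_univ _) ?_)
  intro d _ hd
  refine root_sound hnull hn0 hreps hok d hd ?_
  rw [cellsOf_zero]
  exact Finset.notMem_empty _

end Vale.Agent.Lib.P062
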